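import Vale.Agent.P242.H696.CenReg
import Vale.Agent.P242.H990.Far
import Vale.Agent.P242.H924.Base

/-! P242, package A-DL (helper696): (K9), regularity of `P_τ F` at a centre `y` in terms of
`P_S|F - c₀|(y)`: gradient, Laplacian, gradient of the Laplacian, `Γ₂` form. -/

set_option linter.all false

open MeasureTheory Filter Topology Set
open scoped ENNReal NNReal

universe u

namespace Vale.Agent.P242.H696

open Vale.Agent.P233 Vale.Agent.P233.RA Vale.Agent.P242.H71 Vale.Agent.P242.H990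
  Vale.Agent.P242.H520

variable {M : Type u} [MetricSpace M] [MeasurableSpace M] {m : Measure M}
  {n : ℕ} {K A : ℝ} {o : M} {p : ℝ → M → M → ℝ}

/-- second moments of `P_τ F - a` at a centre -/
theorem mom2 [OpensMeasurableSpace M] (hp : Ker0 m p) (hk : KB n o A p) {Γ τ S r : ℝ} (y : M)
    (hτ : 0 < τ) (h1 : 4 * A ^ 2 * τ ≤ S) (h2 : S ≤ Γ * τ) (h3 : S ≤ 1 / 2) (hr : 0 < r)
    (h4 : 12 * A ^ 2 * r ≤ S) {F : M →ₘ[m] ℝ} (hF : MemLp F 2 m) (a : ℝ) :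
    I (ph m p r y * ((sob m).P τ F - a • (1 : M →ₘ[m] ℝ)) ^ 2) ≤
      (cF n A Γ * Real.exp (2 * A * dist y o)) ^ 2 *
        (cG n A (4 * A ^ 2) 0 * Real.exp (2 * A * dist y o)) *
          (pt m p S (fun w => |F w - a|) y) ^ 2 := by
  have hA := hk.one_le
  have hA0 := hk.pos
  have hA2 : 1 ≤ A ^ 2 := one_le_pow₀ hA
  have hS : 0 < S := lt_of_lt_of_le (by positivity) h1
  have hr4 : 4 * A ^ 2 * r ≤ 1 / 2 := by nlinarith
  obtain ⟨gi, gm⟩ := pt_gauss_moment hp hk y hr le_rfl hr4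
  have e4 : 4 * A ^ 2 * r / r = 4 * A ^ 2 := by field_simp
  rw [e4] at gm
  have hm : AEStronglyMeasurable (fun z => F z - a) m := hF.1.sub aestronglyMeasurable_const
  have hi : ∀ (r : ℝ), 0 < r → ∀ y, Integrable (fun z => p r y z * (F z - a)) m := by
    intro r hr y
    have := (pt_int hp hr y hF).sub ((hp.int r hr y).mul_const a)
    refine this.congr (Eventually.of_forall fun z => ?_)
    simp only [Pi.sub_apply]
    ring
  set ρ := pt m p S (fun w => |F w - a|) y with hρ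
  have hρ0 : 0 ≤ ρ := pt_nonneg hp hS y (Eventually.of_forall fun z => abs_nonneg _)
  set c := cF n A Γ * Real.exp (2 * A * dist y o) with hc
  have hΓ : 0 < Γ := by
    by_contra hc
    rw [not_lt] at hc
    nlinarith
  have hc0 : 0 < c := mul_pos (cF_pos hA hΓ) (Real.exp_pos _)
  -- the pointwise bound
  have key : ∀ᵐ z ∂m, |(sob m).P τ F z - a| ≤ c * Real.exp (3 * A * dist y z ^ 2 / S) * ρ := by
    filter_upwards [hp.rep τ hτ F hF] with z hz
    have e : (sob m).P τ F z - a = pt m p τ (fun w => F w - a) z := by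
      have h0 : pt m p τ (fun w => F w - a) z = pt m p τ F z - pt m p τ (fun _ => a) z := by
        unfold pt
        rw [← integral_sub (pt_int hp hτ z hF) ((hp.int τ hτ z).mul_const a)]
        refine integral_congr_ae (Eventually.of_forall fun w => ?_)
        simp only
        ring
      rw [h0, pt_const hp hτ, hz]
    rw [e]
    exact (abs_pt_le hp hτ z _).trans (pt_far hp hk y z hτ h1 h2 h3 hm (hi S hS y)).2
  -- the integrated bound
  have hb : ∀ᵐ z ∂m, (ph m p r y * ((sob m).P τ F - a • (1 : M →ₘ[m] ℝ)) ^ 2 : M →ₘ[m] ℝ) z ≤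
      (c * ρ) ^ 2 * (p r y z * Real.exp (dist y z ^ 2 / (2 * A * r))) := by
    filter_upwards [key, mul_ae (ph m p r y) (((sob m).P τ F - a • (1 : M →ₘ[m] ℝ)) ^ 2),
      sq_ae ((sob m).P τ F - a • (1 : M →ₘ[m] ℝ)), sub_ae ((sob m).P τ F) (a • (1 : M →ₘ[m] ℝ)),
      smul_ae (1 : M →ₘ[m] ℝ) a, one_ae (M := M) (m := m), ph_ae hp hr y] with z a1 a2 a3 a4 a5 a6 a7
    rw [a2, a3, a4, a5, a6, a7, mul_one]
    have p0 := hp.nonneg r hr y z
    have b1 : ((sob m).P τ F z - a) ^ 2 ≤ (c * Real.exp (3 * A * dist y z ^ 2 / S) * ρ) ^ 2 := by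
      rw [← sq_abs]
      exact pow_le_pow_left₀ (abs_nonneg _) a1 2
    have b2 : Real.exp (3 * A * dist y z ^ 2 / S) ^ 2 ≤ Real.exp (dist y z ^ 2 / (2 * A * r)) := by
      rw [← Real.exp_nat_mul]
      apply Real.exp_le_exp.2
      push_cast
      have e1 : 2 * (3 * A * dist y z ^ 2 / S) = 6 * A * dist y z ^ 2 / S := by ring
      rw [e1]
      calc 6 * A * dist y z ^ 2 / S ≤ 6 * A * dist y z ^ 2 / (12 * A ^ 2 * r) := by gcongr
        _ = dist y z ^ 2 / (2 * A * r) := by field_simp; ring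
    calc p r y z * ((sob m).P τ F z - a) ^ 2
        ≤ p r y z * (c * Real.exp (3 * A * dist y z ^ 2 / S) * ρ) ^ 2 := by gcongr
      _ = (c * ρ) ^ 2 * (p r y z * Real.exp (3 * A * dist y z ^ 2 / S) ^ 2) := by ring
      _ ≤ (c * ρ) ^ 2 * (p r y z * Real.exp (dist y z ^ 2 / (2 * A * r))) := by gcongr
  have h5 : I (ph m p r y * ((sob m).P τ F - a • (1 : M →ₘ[m] ℝ)) ^ 2) ≤
      ∫ z, (c * ρ) ^ 2 * (p r y z * Real.exp (dist y z ^ 2 / (2 * A * r))) ∂m := by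
    unfold I
    refine integral_mono_of_nonneg ?_ (gi.const_mul _) hb
    filter_upwards [mul_ae (ph m p r y) (((sob m).P τ F - a • (1 : M →ₘ[m] ℝ)) ^ 2),
      sq_ae ((sob m).P τ F - a • (1 : M →ₘ[m] ℝ)), ph_ae hp hr y] with z a2 a3 a7
    rw [a2, a3, a7]
    exact mul_nonneg (hp.nonneg r hr y z) (sq_nonneg _)
  refine h5.trans ?_
  rw [integral_const_mul]
  calc (c * ρ) ^ 2 * ∫ z, p r y z * Real.exp (dist y z ^ 2 / (2 * A * r)) ∂m
      ≤ (c * ρ) ^ 2 * (cG n A (4 * A ^ 2) 0 * Real.exp (2 * A * dist y o)) :=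
        mul_le_mul_of_nonneg_left gm (sq_nonneg _)
    _ = _ := by ring

/-- constant of `mom2`, uniform for centres at distance `≤ R` from `o` -/
noncomputable def cM (n : ℕ) (A Γ R : ℝ) : ℝ :=
  (cF n A Γ * Real.exp (2 * A * R)) ^ 2 * (cG n A (4 * A ^ 2) 0 * Real.exp (2 * A * R))

theorem cM_pos {Γ R : ℝ} (hA : 1 ≤ A) (hΓ : 0 < Γ) : 0 < cM n A Γ R := by
  unfold cM
  have h1 := cF_pos (n := n) hA hΓ
  have h2 : 0 < cG n A (4 * A ^ 2) 0 := cG_pos hA (by positivity)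
  positivity

theorem mom2' [OpensMeasurableSpace M] (hp : Ker0 m p) (hk : KB n o A p) {Γ τ S r R : ℝ} {y : M}
    (hy : dist y o ≤ R)
    (hτ : 0 < τ) (h1 : 4 * A ^ 2 * τ ≤ S) (h2 : S ≤ Γ * τ) (h3 : S ≤ 1 / 2) (hr : 0 < r)
    (h4 : 12 * A ^ 2 * r ≤ S) {F : M →ₘ[m] ℝ} (hF : MemLp F 2 m) (a : ℝ) :
    I (ph m p r y * ((sob m).P τ F - a • (1 : M →ₘ[m] ℝ)) ^ 2) ≤
      cM n A Γ R * (I (ph m p S y * |F - a • (1 : M →ₘ[m] ℝ)|)) ^ 2 := by
  have hA := hk.one_le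
  have hA0 := hk.pos
  have hS : 0 < S := lt_of_lt_of_le (by positivity) h1
  have hΓ : 0 < Γ := by
    by_contra hc
    rw [not_lt] at hc
    nlinarith
  have c1 := cF_pos (n := n) hA hΓ
  have c2 : 0 < cG n A (4 * A ^ 2) 0 := cG_pos hA (by positivity)
  have e : I (ph m p S y * |F - a • (1 : M →ₘ[m] ℝ)|) = pt m p S (fun w => |F w - a|) y := by
    rw [I_ph_mul hp hS y]
    have hae : (⇑|F - a • (1 : M →ₘ[m] ℝ)|) =ᵐ[m] fun w => |F w - a| := by
      filter_upwards [abs_ae' (F - a • (1 : M →ₘ[m] ℝ)), sub_ae F (a • (1 : M →ₘ[m] ℝ)),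
      smul_ae (1 : M →ₘ[m] ℝ) a, one_ae (M := M) (m := m)] with z a1 a2 a3 a4
      rw [a1, a2, a3, a4, mul_one]
    exact pt_congr hp hae S y
  rw [e]
  refine (mom2 hp hk y hτ h1 h2 h3 hr h4 hF a).trans ?_
  unfold cM
  have he : Real.exp (2 * A * dist y o) ≤ Real.exp (2 * A * R) := by
    apply Real.exp_le_exp.2
    nlinarith
  gcongr

section reg

variable [CompleteSpace M] [SecondCountableTopology M] [BorelSpace M]

theorem reg_V (hp : Ker0 m p) (hk : KB n o A p) {Γ R S s τ t r : ℝ} {y : M} (hy : dist y o ≤ R)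
    (hs : 0 < s) (hτ : 0 < τ) (hS : S ≤ 1 / 2) (hs1 : 8192 * A ^ 4 * s ≤ S)
    (hτ1 : 8192 * A ^ 4 * τ ≤ S) (hτ2 : S ≤ Γ * τ) (ht1 : τ / 4 ≤ t) (ht2 : t ≤ τ) (hr : 0 < r)
    (hr2 : r ≤ 512 * A ^ 2 * s + τ) {F : M →ₘ[m] ℝ} (hF : MemLp F 2 m) (a : ℝ) :
    I (ph m p r y * ((sob m).P t F - a • (1 : M →ₘ[m] ℝ)) ^ 2) ≤
      cM n A (4 * Γ) R * (I (ph m p S y * |F - a • (1 : M →ₘ[m] ℝ)|)) ^ 2 := by
  have hA := hk.one_le
  have hA0 := hk.pos
  have hA2 : 1 ≤ A ^ 2 := one_le_pow₀ hA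
  have hA42 : A ^ 4 = A ^ 2 * A ^ 2 := by ring
  have hA24 : A ^ 2 ≤ A ^ 4 := by rw [hA42]; exact le_mul_of_one_le_left (by positivity) hA2
  have hS0 : 0 < S := lt_of_lt_of_le (by positivity) hτ1
  have hΓ : 0 < Γ := by
    by_contra hc
    rw [not_lt] at hc
    nlinarith
  have hA3 : A ^ 2 * τ ≤ A ^ 4 * τ := by gcongr
  have ht0 : 0 < t := by linarith
  refine mom2' hp hk hy ht0 ?_ ?_ hS hr ?_ hF a
  · have : A ^ 2 * t ≤ A ^ 2 * τ := by gcongr
    have h0 : 0 ≤ A ^ 4 * τ := by positivity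
    linarith
  · have : Γ * (τ / 4) ≤ Γ * t := by gcongr
    linarith
  · have h1 : 12 * A ^ 2 * r ≤ 12 * A ^ 2 * (512 * A ^ 2 * s + τ) := by gcongr
    have h2 : 12 * A ^ 2 * (512 * A ^ 2 * s + τ) = 6144 * (A ^ 4 * s) + 12 * (A ^ 2 * τ) := by
      rw [hA42]; ring
    have h0 : 0 ≤ A ^ 4 * τ := by positivity
    linarith

/-- constant of the regularity bounds -/
noncomputable def cR (n : ℕ) (A Γ R : ℝ) : ℝ := 16 * Real.exp 8 * ((n : ℝ) + 1) * cM n A (4 * Γ) R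

theorem cR_pos {Γ R : ℝ} (hA : 1 ≤ A) (hΓ : 0 < Γ) : 0 < cR n A Γ R := by
  unfold cR
  have := cM_pos (n := n) (R := R) hA (show 0 < 4 * Γ by positivity)
  positivity

/-- constant of (K9) -/
noncomputable def cR2 (n : ℕ) (K A Γ R : ℝ) : ℝ :=
  cR n A Γ R + Real.exp 8 * (cL n n (-|K|) A (512 * A ^ 2) 0 * Real.exp (32 * A * R)) * Γ *
    cM n A (4 * Γ) R

theorem main_aux {n : ℕ} {V X c : ℝ} (hV : 0 ≤ V) (hc : c ≤ 16 * ((n : ℝ) + 1)) (h0 : 0 ≤ c)
    {e : ℝ} (he0 : 0 ≤ e) (he : e ≤ Real.exp 8) (hX : X ≤ c * e * V) :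
    X ≤ 16 * Real.exp 8 * ((n : ℝ) + 1) * V := by
  refine hX.trans ?_
  have : c * e ≤ 16 * ((n : ℝ) + 1) * Real.exp 8 := mul_le_mul hc he he0 (by positivity)
  calc c * e * V ≤ 16 * ((n : ℝ) + 1) * Real.exp 8 * V := mul_le_mul_of_nonneg_right this hV
    _ = _ := by ring

theorem exp_aux2 {k t c : ℝ} (hk : 0 ≤ k) (ht : 0 ≤ t) (hkt : k * t ≤ 1) (hc : 0 ≤ c)
    (hc8 : c ≤ 8) : Real.exp (c * k * t) ≤ Real.exp 8 := by
  apply Real.exp_le_exp.2
  have : 0 ≤ k * t := mul_nonneg hk ht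
  nlinarith

theorem exp_inv_aux (x : ℝ) : Real.exp x * Real.exp (-x) = 1 := by
  rw [← Real.exp_add]; simp

variable {Γ R S s τ : ℝ} {y : M} {F : M →ₘ[m] ℝ}

theorem reg_sq (h : Env m n K o A p) (hy : dist y o ≤ R)
    (hs : 0 < s) (hτ : 0 < τ) (hS : S ≤ 1 / 2) (hs1 : 8192 * A ^ 4 * s ≤ S)
    (hτ1 : 8192 * A ^ 4 * τ ≤ S) (hτ2 : S ≤ Γ * τ) (hF : MemLp F 2 m) (a : ℝ) :
    I (ph m p s y * ((sob m).P τ F - a • (1 : M →ₘ[m] ℝ)) ^ 2) ≤
        cR n A Γ R * (I (ph m p S y * |F - a • (1 : M →ₘ[m] ℝ)|)) ^ 2 := by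
  have hA := h.kb.one_le
  have hA2 : 1 ≤ A ^ 2 := one_le_pow₀ hA
  have hΓ : 0 < Γ := by
    have : 0 < S := lt_of_lt_of_le (by positivity) hτ1
    by_contra hc
    rw [not_lt] at hc
    nlinarith
  have hcM := cM_pos (n := n) (R := R) hA (show 0 < 4 * Γ by positivity)
  have h1 := reg_V h.ker h.kb hy hs hτ hS hs1 hτ1 hτ2 (t := τ) (by linarith) le_rfl hs
    (by nlinarith) hF a
  unfold cR
  rw [mul_assoc _ (cM n A (4 * Γ) R)]
  exact main_aux (n := n) (c := 1) (e := 1)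
    (V := cM n A (4 * Γ) R * (I (ph m p S y * |F - a • (1 : M →ₘ[m] ℝ)|)) ^ 2)
    (by positivity) (by linarith [(Nat.cast_nonneg n : (0 : ℝ) ≤ n)]) (by norm_num) (by norm_num)
    (Real.one_le_exp (by norm_num)) (by rw [one_mul, one_mul]; exact h1)

theorem reg_grad (h : Env m n K o A p) (hy : dist y o ≤ R)
    (hs : 0 < s) (hτ : 0 < τ) (hS : S ≤ 1 / 2) (hK : |K| * τ ≤ 1) (hs1 : 8192 * A ^ 4 * s ≤ S)
    (hτ1 : 8192 * A ^ 4 * τ ≤ S) (hτ2 : S ≤ Γ * τ) (hF : MemLp F 2 m)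
    (hFt : MemLp F ∞ m) (a : ℝ) :
    τ * I (ph m p s y * (sob m).Γ ((sob m).P τ F) ((sob m).P τ F)) ≤
        cR n A Γ R * (I (ph m p S y * |F - a • (1 : M →ₘ[m] ℝ)|)) ^ 2 := by
  have hfa := H924.facts h.hyp
  have hC := hfa.gam
  have hD := hC.toIsDir
  have hn := hfa.npos
  haveI := hfa.sf
  have hBE : (sob m).BE (-|K|) n := hC.be_mono hn (neg_abs_le K) hfa.be
  have hcen := H924.cen hC h y
  have hA := h.kb.one_le
  have hA2 : 1 ≤ A ^ 2 := one_le_pow₀ hA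
  have hΓ : 0 < Γ := by
    have : 0 < S := lt_of_lt_of_le (by positivity) hτ1
    by_contra hc
    rw [not_lt] at hc
    nlinarith
  have hcM := cM_pos (n := n) (R := R) hA (show 0 < 4 * Γ by positivity)
  have hs512 : s ≤ 512 * A ^ 2 * s := by nlinarith
  have hr := reg_V h.ker h.kb hy hs hτ hS hs1 hτ1 hτ2 (t := τ / 4) le_rfl (by linarith)
    (r := s + 3 * (τ / 4)) (by positivity) (by linarith) hF a
  have hu : (sob m).P (3 * (τ / 4)) ((sob m).P (τ / 4) F) = (sob m).P τ F := by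
    rw [hD.P_P (by positivity) (by positivity) hF]; congr 1; ring
  have h1 := (cen_grad hcen hC (hC.bei hn hBE) (s := s) (t := 3 * (τ / 4)) hs (by positivity)
    (hD.P_mem2 (τ / 4) hF) (hD.P_memTop (by positivity) hF hFt) a).trans hr
  rw [hu] at h1
  set G := I (ph m p s y * (sob m).Γ ((sob m).P τ F) ((sob m).P τ F)) with hG
  set V := cM n A (4 * Γ) R * (I (ph m p S y * |F - a • (1 : M →ₘ[m] ℝ)|)) ^ 2 with hV
  have hV0 : 0 ≤ V := by positivity
  have hκ : |(-|K|)| = |K| := by rw [abs_neg, abs_abs]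
  rw [hκ] at h1
  have e : cR n A Γ R * (I (ph m p S y * |F - a • (1 : M →ₘ[m] ℝ)|)) ^ 2
      = 16 * Real.exp 8 * ((n : ℝ) + 1) * V := by unfold cR; rw [hV]; ring
  rw [e]
  refine main_aux (c := 2 / 3) hV0 (by linarith [(Nat.cast_nonneg n : (0 : ℝ) ≤ n)]) (by norm_num)
    (Real.exp_pos _).le (exp_aux2 (abs_nonneg K) (t := τ) (c := 3 / 2) hτ.le hK (by norm_num)
    (by norm_num)) ?_
  have e2 : 2 * |K| * (3 * (τ / 4)) = 3 / 2 * |K| * τ := by ring
  rw [e2] at h1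
  calc τ * G = (Real.exp (3 / 2 * |K| * τ) * Real.exp (-(3 / 2 * |K| * τ))) * (τ * G) := by
        rw [exp_inv_aux, one_mul]
    _ = 2 / 3 * Real.exp (3 / 2 * |K| * τ) *
        (2 * (3 * (τ / 4)) * Real.exp (-(3 / 2 * |K| * τ)) * G) := by ring
    _ ≤ 2 / 3 * Real.exp (3 / 2 * |K| * τ) * V := by gcongr

theorem reg_lap (h : Env m n K o A p) (hy : dist y o ≤ R)
    (hs : 0 < s) (hτ : 0 < τ) (hS : S ≤ 1 / 2) (hK : |K| * τ ≤ 1) (hs1 : 8192 * A ^ 4 * s ≤ S)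
    (hτ1 : 8192 * A ^ 4 * τ ≤ S) (hτ2 : S ≤ Γ * τ) (hF : MemLp F 2 m)
    (hFt : MemLp F ∞ m) (a : ℝ) :
    τ ^ 2 * I (ph m p s y * (sob m).lap ((sob m).P τ F) ^ 2) ≤
        cR n A Γ R * (I (ph m p S y * |F - a • (1 : M →ₘ[m] ℝ)|)) ^ 2 := by
  have hfa := H924.facts h.hyp
  have hC := hfa.gam
  have hD := hC.toIsDir
  have hn := hfa.npos
  haveI := hfa.sf
  have hBE : (sob m).BE (-|K|) n := hC.be_mono hn (neg_abs_le K) hfa.be
  have hcen := H924.cen hC h y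
  have hA := h.kb.one_le
  have hA2 : 1 ≤ A ^ 2 := one_le_pow₀ hA
  have hΓ : 0 < Γ := by
    have : 0 < S := lt_of_lt_of_le (by positivity) hτ1
    by_contra hc
    rw [not_lt] at hc
    nlinarith
  have hcM := cM_pos (n := n) (R := R) hA (show 0 < 4 * Γ by positivity)
  have hs512 : s ≤ 512 * A ^ 2 * s := by nlinarith
  have hr := reg_V h.ker h.kb hy hs hτ hS hs1 hτ1 hτ2 (t := τ / 2) (by linarith) (by linarith)
    (r := s + 2 * (τ / 4)) (by positivity) (by linarith) hF a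
  have hu : (sob m).P (2 * (τ / 4)) ((sob m).P (τ / 2) F) = (sob m).P τ F := by
    rw [hD.P_P (by positivity) (by positivity) hF]; congr 1; ring
  have h1 := (cen_lap hcen hC hn hBE (s := s) (t := τ / 4) hs (by positivity)
    (hD.P_mem2 (τ / 2) hF) (hD.P_memTop (by positivity) hF hFt) a).trans hr
  rw [hu] at h1
  set G := I (ph m p s y * (sob m).lap ((sob m).P τ F) ^ 2) with hG
  set V := cM n A (4 * Γ) R * (I (ph m p S y * |F - a • (1 : M →ₘ[m] ℝ)|)) ^ 2 with hV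
  have hV0 : 0 ≤ V := by positivity
  have hκ : |(-|K|)| = |K| := by rw [abs_neg, abs_abs]
  rw [hκ] at h1
  have e : cR n A Γ R * (I (ph m p S y * |F - a • (1 : M →ₘ[m] ℝ)|)) ^ 2
      = 16 * Real.exp 8 * ((n : ℝ) + 1) * V := by unfold cR; rw [hV]; ring
  rw [e]
  have e2 : 6 * |K| * (τ / 4) = 3 / 2 * |K| * τ := by ring
  rw [e2] at h1
  refine main_aux (c := 4 * n) hV0 (by linarith [(Nat.cast_nonneg n : (0 : ℝ) ≤ n)]) (by positivity)
    (Real.exp_pos _).le (exp_aux2 (abs_nonneg K) (t := τ) (c := 3 / 2) hτ.le hK (by norm_num)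
    (by norm_num)) ?_
  calc τ ^ 2 * G = (Real.exp (3 / 2 * |K| * τ) * Real.exp (-(3 / 2 * |K| * τ))) *
        (τ ^ 2 * G) := by rw [exp_inv_aux, one_mul]
    _ = 4 * n * Real.exp (3 / 2 * |K| * τ) *
        (4 * (τ / 4) ^ 2 / n * Real.exp (-(3 / 2 * |K| * τ)) * G) := by
        field_simp
        try ring
    _ ≤ 4 * n * Real.exp (3 / 2 * |K| * τ) * V := by gcongr

theorem reg_grad_lap (h : Env m n K o A p) (hy : dist y o ≤ R)
    (hs : 0 < s) (hτ : 0 < τ) (hS : S ≤ 1 / 2) (hK : |K| * τ ≤ 1) (hs1 : 8192 * A ^ 4 * s ≤ S)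
    (hτ1 : 8192 * A ^ 4 * τ ≤ S) (hτ2 : S ≤ Γ * τ) (hF : MemLp F 2 m)
    (hFt : MemLp F ∞ m) (a : ℝ) :
    τ ^ 3 * I (ph m p s y * (sob m).Γ ((sob m).lap ((sob m).P τ F)) ((sob m).lap ((sob m).P τ F)))
        ≤ cR n A Γ R * (I (ph m p S y * |F - a • (1 : M →ₘ[m] ℝ)|)) ^ 2 := by
  have hfa := H924.facts h.hyp
  have hC := hfa.gam
  have hD := hC.toIsDir
  have hn := hfa.npos
  haveI := hfa.sf
  have hBE : (sob m).BE (-|K|) n := hC.be_mono hn (neg_abs_le K) hfa.be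
  have hcen := H924.cen hC h y
  have hA := h.kb.one_le
  have hA2 : 1 ≤ A ^ 2 := one_le_pow₀ hA
  have hΓ : 0 < Γ := by
    have : 0 < S := lt_of_lt_of_le (by positivity) hτ1
    by_contra hc
    rw [not_lt] at hc
    nlinarith
  have hcM := cM_pos (n := n) (R := R) hA (show 0 < 4 * Γ by positivity)
  have hs512 : s ≤ 512 * A ^ 2 * s := by nlinarith
  have hr := reg_V h.ker h.kb hy hs hτ hS hs1 hτ1 hτ2 (t := τ / 4) le_rfl (by linarith)
    (r := s + 3 * (τ / 4)) (by positivity) (by linarith) hF a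
  have hu : (sob m).P (3 * (τ / 4)) ((sob m).P (τ / 4) F) = (sob m).P τ F := by
    rw [hD.P_P (by positivity) (by positivity) hF]; congr 1; ring
  have h1 := (cen_grad_lap hcen hC hn hBE (s := s) (t := τ / 4) hs (by positivity)
    (hD.P_mem2 (τ / 4) hF) (hD.P_memTop (by positivity) hF hFt) a).trans hr
  rw [hu] at h1
  set G := I (ph m p s y * (sob m).Γ ((sob m).lap ((sob m).P τ F))
    ((sob m).lap ((sob m).P τ F))) with hG
  set V := cM n A (4 * Γ) R * (I (ph m p S y * |F - a • (1 : M →ₘ[m] ℝ)|)) ^ 2 with hV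
  have hV0 : 0 ≤ V := by positivity
  have hκ : |(-|K|)| = |K| := by rw [abs_neg, abs_abs]
  rw [hκ] at h1
  have e : cR n A Γ R * (I (ph m p S y * |F - a • (1 : M →ₘ[m] ℝ)|)) ^ 2
      = 16 * Real.exp 8 * ((n : ℝ) + 1) * V := by unfold cR; rw [hV]; ring
  rw [e]
  have e2 : 8 * |K| * (τ / 4) = 2 * |K| * τ := by ring
  rw [e2] at h1
  refine main_aux (c := 8 * n) hV0 (by linarith [(Nat.cast_nonneg n : (0 : ℝ) ≤ n)]) (by positivity)
    (Real.exp_pos _).le (exp_aux2 (abs_nonneg K) (t := τ) (c := 2) hτ.le hK (by norm_num)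
    (by norm_num)) ?_
  calc τ ^ 3 * G = (Real.exp (2 * |K| * τ) * Real.exp (-(2 * |K| * τ))) *
        (τ ^ 3 * G) := by rw [exp_inv_aux, one_mul]
    _ = 8 * n * Real.exp (2 * |K| * τ) *
        (8 * (τ / 4) ^ 3 / n * Real.exp (-(2 * |K| * τ)) * G) := by
        field_simp
        try ring
    _ ≤ 8 * n * Real.exp (2 * |K| * τ) * V := by gcongr

/-- **(K9)** -/
theorem reg_gam (h : Env m n K o A p) (hy : dist y o ≤ R)
    (hs : 0 < s) (hτ : 0 < τ) (hS : S ≤ 1 / 2) (hK : |K| * τ ≤ 1) (hs1 : 8192 * A ^ 4 * s ≤ S)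
    (hs2 : S ≤ Γ * s) (hτ1 : 8192 * A ^ 4 * τ ≤ S) (hτ2 : S ≤ Γ * τ) (hF : MemLp F 2 m)
    (hFt : MemLp F ∞ m) (a : ℝ) :
    τ ^ 2 * gam m K p s y ((sob m).P τ F) ((sob m).P τ F) ≤
        cR2 n K A Γ R * (I (ph m p S y * |F - a • (1 : M →ₘ[m] ℝ)|)) ^ 2 := by
  have hfa := H924.facts h.hyp
  have hC := hfa.gam
  have hD := hC.toIsDir
  have hn := hfa.npos
  haveI := hfa.sf
  have hBE : (sob m).BE (-|K|) n := hC.be_mono hn (neg_abs_le K) hfa.be
  have hcen := H924.cen hC h y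
  have hA := h.kb.one_le
  have hA0 := h.kb.pos
  have hA2 : 1 ≤ A ^ 2 := one_le_pow₀ hA
  have hA42 : A ^ 4 = A ^ 2 * A ^ 2 := by ring
  have hA24 : A ^ 2 ≤ A ^ 4 := by rw [hA42]; exact le_mul_of_one_le_left (by positivity) hA2
  have hΓ : 0 < Γ := by
    have : 0 < S := lt_of_lt_of_le (by positivity) hτ1
    by_contra hc
    rw [not_lt] at hc
    nlinarith
  have hcM := cM_pos (n := n) (R := R) hA (show 0 < 4 * Γ by positivity)
  have hs512 : s ≤ 512 * A ^ 2 * s := by nlinarith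
  have ht0 : 0 < τ / 4 := by positivity
  have hu : (sob m).P (3 * (τ / 4)) ((sob m).P (τ / 4) F) = (sob m).P τ F := by
    rw [hD.P_P (by positivity) (by positivity) hF]; congr 1; ring
  set l := cL n n (-|K|) A (512 * A ^ 2) 0 * Real.exp (32 * A * R) with hl
  have hl0 : 0 ≤ l := by
    have := cK_pos (n := n) (C₀ := 0) hA (show (0 : ℝ) < 512 * A ^ 2 by positivity)
    rw [hl]
    unfold cL
    positivity
  set V := cM n A (4 * Γ) R * (I (ph m p S y * |F - a • (1 : M →ₘ[m] ℝ)|)) ^ 2 with hV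
  have hV0 : 0 ≤ V := by positivity
  have h512 : 512 * A ^ 2 * s ≤ 1 / 2 := by
    have h1 : A ^ 2 * s ≤ A ^ 4 * s := by gcongr
    have h0 : 0 ≤ A ^ 4 * s := by positivity
    linarith
  have hL := ph_lap_le hC h.ker h.kb hn hBE (Γ := 512 * A ^ 2) (C₀ := 0) (x := y) (x' := y) hs
    le_rfl le_rfl h512 (by rw [dist_self, zero_mul])
  have hL' : ∀ᵐ z ∂m, |(sob m).lap (ph m p s y) z| ≤ (l / s) * ph m p (512 * A ^ 2 * s) y z := by
    filter_upwards [hL, ph_ae h.ker (show 0 < 512 * A ^ 2 * s by positivity) y] with z a1 a2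
    rw [a2]
    refine a1.trans ?_
    have p0 := h.ker.nonneg (512 * A ^ 2 * s) (by positivity) y z
    have he : Real.exp (32 * A * dist y o) ≤ Real.exp (32 * A * R) := by
      apply Real.exp_le_exp.2
      nlinarith
    have hcL : 0 ≤ cL n n (-|K|) A (512 * A ^ 2) 0 := by
      have := cK_pos (n := n) (C₀ := 0) hA (show (0 : ℝ) < 512 * A ^ 2 by positivity)
      unfold cL
      positivity
    calc cL n n (-|K|) A (512 * A ^ 2) 0 / s * Real.exp (32 * A * dist y o) *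
          p (512 * A ^ 2 * s) y z
        ≤ cL n n (-|K|) A (512 * A ^ 2) 0 / s * Real.exp (32 * A * R) *
          p (512 * A ^ 2 * s) y z := by gcongr
      _ = l / s * p (512 * A ^ 2 * s) y z := by rw [hl]; ring
  have hκ : |(-|K|)| = |K| := by rw [abs_neg, abs_abs]
  have hκt : |(-|K|)| * (τ / 4) ≤ 1 := by
    rw [hκ]
    have : 0 ≤ |K| * τ := mul_nonneg (abs_nonneg K) hτ.le
    linarith
  have h1 := cen_NN hcen hC hn hBE (s := s) (t := τ / 4) hs ht0 hκt (hD.P_mem2 (τ / 4) hF)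
    (hD.P_memTop ht0.le hF hFt) a (L := l / s) (s' := 512 * A ^ 2 * s) (V := V) (by positivity)
    (by positivity) hL' (by
      rintro r (rfl | rfl)
      · exact reg_V h.ker h.kb hy hs hτ hS hs1 hτ1 hτ2 (t := τ / 4) le_rfl (by linarith)
          (by positivity) (by linarith) hF a
      · exact reg_V h.ker h.kb hy hs hτ hS hs1 hτ1 hτ2 (t := τ / 4) le_rfl (by linarith)
          (by positivity) (by linarith) hF a)
  rw [hu] at h1
  have e : cR2 n K A Γ R * (I (ph m p S y * |F - a • (1 : M →ₘ[m] ℝ)|)) ^ 2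
      = (16 * Real.exp 8 * ((n : ℝ) + 1) + Real.exp 8 * l * Γ) * V := by
    unfold cR2 cR; rw [hV]; ring
  rw [e]
  have e0 : gam m K p s y ((sob m).P τ F) ((sob m).P τ F)
      = (sob m).NN (-|K|) ((sob m).P τ F) ((sob m).P τ F) (ph m p s y) := rfl
  rw [e0]
  refine (mul_le_mul_of_nonneg_left h1 (by positivity)).trans ?_
  have e67 : Real.exp 6 ≤ Real.exp 8 := Real.exp_le_exp.2 (by norm_num)
  have e78 : Real.exp 7 ≤ Real.exp 8 := Real.exp_le_exp.2 (by norm_num)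
  have hts : τ ≤ Γ * s := by
    refine le_trans ?_ hs2
    have : 0 ≤ A ^ 4 * τ := by positivity
    have hA4 : 1 ≤ A ^ 4 := one_le_pow₀ hA
    nlinarith
  have e3 : τ ^ 2 * ((Real.exp 6 * (l / s) / (12 * (τ / 4)) +
      Real.exp 7 * ((n : ℝ) + 1) / (τ / 4) ^ 2) * V)
      = (16 * Real.exp 7 * ((n : ℝ) + 1) + Real.exp 6 * l * (τ / s) / 3) * V := by
    field_simp; ring
  rw [e3]
  have h3 : τ / s ≤ Γ := by rwa [div_le_iff₀ hs]
  have h4 : Real.exp 6 * l * (τ / s) / 3 ≤ Real.exp 8 * l * Γ := by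
    calc Real.exp 6 * l * (τ / s) / 3 ≤ Real.exp 6 * l * (τ / s) := by
          apply div_le_self (by positivity)
          norm_num
      _ ≤ Real.exp 8 * l * Γ := by gcongr
  gcongr

end reg

end Vale.Agent.P242.H696
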