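import Vale.Agent.P242.H520.St3

/-! P242 (helper696): the start of (R1): at the times of the window `[ρ²/M'², ρ²/M']`,
`P_t (w_q - w_x)` is affine in the maps `u`, up to `e (t/ρ²) t` in `L¹(p_t(x,·))`. -/

set_option linter.all false

open MeasureTheory Filter Topology Set Metric
open scoped ENNReal NNReal InnerProductSpace

universe u

namespace Vale.Agent.P242.H696

open Vale.Agent.P233 Vale.Agent.P233.RA Vale.Agent.P242.H71 Vale.Agent.P242.H990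
  Vale.Agent.P242.H520

/-- The start of (R1). -/
def Blk_StR : Prop := ForM.{u} fun M _ _ _ => ∀ (m : Measure M) (n : ℕ) (K : ℝ) (o : M) (A : ℝ)
  (p : ℝ → M → M → ℝ), Env m n K o A p →
  ∃ Q₀, 1 ≤ Q₀ ∧ ∀ Q, Q₀ ≤ Q → ∃ R₀, 1 ≤ R₀ ∧ ∀ R, R₀ ≤ R → ∀ C₀ e : ℝ, 1 ≤ C₀ → 0 < e →
  ∃ M₀, 1 ≤ M₀ ∧ ∀ M', M₀ ≤ M' → ∃ η₁, 0 < η₁ ∧
    ∀ η δ ρ, 0 < η → η ≤ η₁ → δ ≤ η₁ → ρ ≤ η₁ → ∀ (u : Fin n → M →ₘ[m] ℝ) (uu : M → E n),
      Cfg m n K o p R Q η ρ u uu → DropS m n K o p R Q δ ρ →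
      ∀ x ∈ ball o (R / 2 * ρ), ∀ t, ρ ^ 2 / M' ^ 2 ≤ t → t ≤ ρ ^ 2 / M' →
      ∀ q, dist x q ≤ C₀ * √t → ∃ (c₀ : ℝ) (c : E n),
        I (ph m p t x * |(sob m).P t (cl m (ww (1 / 2) q) - cl m (ww (1 / 2) x))
          - c₀ • (1 : M →ₘ[m] ℝ) - uc u c|) ≤ e * (t / ρ ^ 2) * t

/-- the exponential beats the square -/
theorem exp_sq_small {C e : ℝ} (hC : 0 < C) (he : 0 < e) : ∃ M₀ : ℝ, 1 ≤ M₀ ∧
    ∀ L, M₀ ≤ L → Real.exp (-(L / C)) * L ^ 2 ≤ e := by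
  refine ⟨max 1 (6 * C ^ 3 / e), le_max_left _ _, fun L hL => ?_⟩
  have h1 : 1 ≤ L := (le_max_left _ _).trans hL
  have h2 : 6 * C ^ 3 / e ≤ L := (le_max_right _ _).trans hL
  have hL0 : 0 < L := by linarith
  have h3 := Real.pow_div_factorial_le_exp (L / C) (by positivity) 3
  have h4 : (L / C) ^ 3 / 6 ≤ Real.exp (L / C) := by
    have : ((Nat.factorial 3 : ℕ) : ℝ) = 6 := by norm_num [Nat.factorial]
    rw [this] at h3
    exact h3
  rw [div_le_iff₀ he] at h2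
  rw [Real.exp_neg, inv_mul_le_iff₀ (Real.exp_pos _)]
  calc L ^ 2 ≤ (L / C) ^ 3 / 6 * e := by
        rw [div_pow, div_div, div_mul_eq_mul_div, le_div_iff₀ (by positivity)]
        calc L ^ 2 * (C ^ 3 * 6) = L ^ 2 * (6 * C ^ 3) := by ring
          _ ≤ L ^ 2 * (L * e) := by gcongr
          _ = _ := by ring
    _ ≤ _ := mul_le_mul_of_nonneg_right h4 he.le

variable {M : Type u} [MetricSpace M] [CompleteSpace M] [SecondCountableTopology M]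
  [MeasurableSpace M] [BorelSpace M] {m : Measure M} {n : ℕ} {K A : ℝ} {o : M}
  {p : ℝ → M → M → ℝ}

/-- the difference of the two regularised squared distances is affine in `u` up to `Hd` -/
theorem bb_diff {R Q η ρ : ℝ} {u : Fin n → M →ₘ[m] ℝ} {uu : M → E n}
    (hu : Cfg m n K o p R Q η ρ u uu) (x q : M) (t : ℝ) :
    ∀ᵐ z ∂m, bb m q t z - bb m x t z
      = Hd m n q t uu z - Hd m n x t uu z + (‖uu q‖ ^ 2 - ‖uu x‖ ^ 2) / 2
        + uc u (uu x - uu q) z := by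
  filter_upwards [H751.uc_ae hu.rep (uu x - uu q)] with z hz
  rw [hz]
  unfold Hd
  have e1 : ‖uu z - uu q‖ ^ 2 = ‖uu z‖ ^ 2 - 2 * ⟪uu q, uu z⟫_ℝ + ‖uu q‖ ^ 2 := by
    rw [norm_sub_sq_real, real_inner_comm]
  have e2 : ‖uu z - uu x‖ ^ 2 = ‖uu z‖ ^ 2 - 2 * ⟪uu x, uu z⟫_ℝ + ‖uu x‖ ^ 2 := by
    rw [norm_sub_sq_real, real_inner_comm]
  rw [e1, e2, inner_sub_left]
  ring

theorem stR_real {C₂ S t ρ e L : ℝ} (ht : 0 < t) (hρ : 0 < ρ)
    (hC : 0 ≤ C₂) (hS : 0 ≤ S) (ht1 : ρ ^ 2 ≤ L ^ 2 * t)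
    (hs : C₂ * (S * L ^ 2) ≤ e) :
    C₂ * (t * S) ≤ e * (t / ρ ^ 2) * t := by
  have h1 : C₂ * S ≤ e * (t / ρ ^ 2) := by
    rw [← mul_div_assoc, le_div_iff₀ (by positivity)]
    calc C₂ * S * ρ ^ 2 ≤ C₂ * S * (L ^ 2 * t) := by gcongr
      _ = C₂ * (S * L ^ 2) * t := by ring
      _ ≤ e * t := by gcongr
  calc C₂ * (t * S) = C₂ * S * t := by ring
    _ ≤ _ := mul_le_mul_of_nonneg_right h1 ht.le

/-- domination of one kernel by another one -/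
theorem pt_dom {s t a : ℝ} {x q : M} (h : Ker0 m p) (ht : 0 < t) (ha : 0 ≤ a)
    (hd : ∀ z, p t x z ≤ a * p s q z) {F : M → ℝ} (hF : AEStronglyMeasurable F m)
    (hi : Integrable (fun z => p s q z * |F z|) m) :
    Integrable (fun z => p t x z * |F z|) m ∧
      pt m p t (fun z => |F z|) x ≤ a * pt m p s (fun z => |F z|) q := by
  have hb : ∀ z, p t x z * |F z| ≤ a * (p s q z * |F z|) := by
    intro z
    have := mul_le_mul_of_nonneg_right (hd z) (abs_nonneg (F z))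
    linarith
  have i1 : Integrable (fun z => p t x z * |F z|) m := by
    refine (hi.const_mul a).mono' ((ph_meas h ht x).mul (by simpa using hF.norm)) ?_
    filter_upwards with z
    rw [Real.norm_eq_abs, abs_mul, abs_of_nonneg (h.nonneg t ht x z), abs_abs]
    exact hb z
  refine ⟨i1, ?_⟩
  calc pt m p t (fun z => |F z|) x
      ≤ ∫ z, a * (p s q z * |F z|) ∂m := integral_mono i1 (hi.const_mul a) hb
    _ = _ := integral_const_mul _ _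

/-- the mean of the error -/
theorem mean_diff (h : Env m n K o A p) {R Q η ρ : ℝ} {u : Fin n → M →ₘ[m] ℝ} {uu : M → E n}
    (hu : Cfg m n K o p R Q η ρ u uu) {x q : M} {t : ℝ} (ht : 0 < t)
    (iq : Integrable (fun z => p t x z * |Hd m n q t uu z|) m)
    (ix : Integrable (fun z => p t x z * |Hd m n x t uu z|) m) :
    I (ph m p t x * |(sob m).P t (cl m (ww (1 / 2) q) - cl m (ww (1 / 2) x))
          - ((‖uu q‖ ^ 2 - ‖uu x‖ ^ 2) / 2) • (1 : M →ₘ[m] ℝ) - uc u (uu x - uu q)|)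
      ≤ pt m p t (fun z => |Hd m n q t uu z|) x + pt m p t (fun z => |Hd m n x t uu z|) x := by
  have hC := H751.env_gamma h
  have hD := hC.toIsDir
  have mx : MemLp (cl m (ww (1 / 2) x)) 2 m := hC.memLp _ (H254.vx_of h.hyp x).mem
  have mq : MemLp (cl m (ww (1 / 2) q)) 2 m := hC.memLp _ (H254.vx_of h.hyp q).mem
  obtain ⟨c, hc⟩ : ∃ c, c = (‖uu q‖ ^ 2 - ‖uu x‖ ^ 2) / 2 := ⟨_, rfl⟩
  obtain ⟨v, hv⟩ : ∃ v, v = uu x - uu q := ⟨_, rfl⟩
  have hbb := bb_diff hu x q t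
  rw [← hc, ← hv] at hbb ⊢
  have eP : (sob m).P t (cl m (ww (1 / 2) q) - cl m (ww (1 / 2) x)) = bb m q t - bb m x t :=
    hD.P_sub t mq mx
  rw [I_ph_mul h.ker ht x, ← (pt_add iq ix).2, eP]
  unfold pt
  have hae : ∀ᵐ z ∂m, (|bb m q t - bb m x t - c • (1 : M →ₘ[m] ℝ) - uc u v| : M →ₘ[m] ℝ) z
      = |Hd m n q t uu z - Hd m n x t uu z| := by
    filter_upwards [abs_ae' (bb m q t - bb m x t - c • (1 : M →ₘ[m] ℝ) - uc u v),
        sub_ae (bb m q t - bb m x t - c • (1 : M →ₘ[m] ℝ)) (uc u v),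
        sub_ae (bb m q t - bb m x t) (c • (1 : M →ₘ[m] ℝ)),
        sub_ae (bb m q t) (bb m x t), smul_ae (1 : M →ₘ[m] ℝ) c,
        one_ae (M := M) (m := m), hbb] with z b1 b2 b3 b4 b5 b6 b7
    rw [b1, b2, b3, b4, b5, b6, b7]
    congr 1
    ring
  refine integral_mono_of_nonneg ?_ (pt_add iq ix).1 ?_
  · filter_upwards [hae] with z hz
    rw [hz]
    exact mul_nonneg (h.ker.nonneg t ht x z) (abs_nonneg _)
  · filter_upwards [hae] with z hz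
    refine mul_le_mul_of_nonneg_left ?_ (h.ker.nonneg t ht x z)
    rw [hz]
    exact abs_sub _ _

/-- **The start of (R1).** -/
theorem stR (h : Env m n K o A p) {Q R : ℝ} (hQ : 1 ≤ Q) (hR : 1 ≤ R) {C₀ e : ℝ} (hC₀ : 1 ≤ C₀)
    (he : 0 < e) :
    ∃ M₀, 1 ≤ M₀ ∧ ∀ M', M₀ ≤ M' → ∃ η₁, 0 < η₁ ∧
    ∀ η δ ρ, 0 < η → η ≤ η₁ → δ ≤ η₁ → ρ ≤ η₁ → ∀ (u : Fin n → M →ₘ[m] ℝ) (uu : M → E n),
      Cfg m n K o p R Q η ρ u uu → DropS m n K o p R Q δ ρ →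
      ∀ x ∈ ball o (R / 2 * ρ), ∀ t, ρ ^ 2 / M' ^ 2 ≤ t → t ≤ ρ ^ 2 / M' →
      ∀ q, dist x q ≤ C₀ * √t →
        I (ph m p t x * |(sob m).P t (cl m (ww (1 / 2) q) - cl m (ww (1 / 2) x))
          - ((‖uu q‖ ^ 2 - ‖uu x‖ ^ 2) / 2) • (1 : M →ₘ[m] ℝ) - uc u (uu x - uu q)|)
            ≤ e * (t / ρ ^ 2) * t := by
  have hA := h.kb.one_le
  have hA0 := h.kb.pos
  have hA2 : 1 ≤ A ^ 2 := one_le_pow₀ hA
  set Γ : ℝ := 4 * A ^ 2 with hΓ
  have hΓ1 : 1 ≤ Γ := by linarith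
  have hΓ0 : 0 < Γ := by linarith
  obtain ⟨C, hC, key⟩ := hd_L1 h (Γ := Γ) hΓ1
  set a : ℝ := cG n A Γ C₀ * Real.exp (2 * A) with ha
  have ha0 : 0 < a := mul_pos (cG_pos hA hΓ0) (Real.exp_pos _)
  set C₂ : ℝ := (a + 1) * C with hC₂
  have hC₂0 : 0 < C₂ := by positivity
  obtain ⟨M₁, hM₁, hexp⟩ := exp_sq_small (C := C) (e := e / (4 * C₂)) (by linarith) (by positivity)
  refine ⟨max M₁ (max C (16 * C₀ ^ 2)), hM₁.trans (le_max_left _ _), fun L hL => ?_⟩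
  have hLM : M₁ ≤ L := (le_max_left _ _).trans hL
  have hLC : C ≤ L := ((le_max_left _ _).trans (le_max_right _ _)).trans hL
  have hLC₀ : 16 * C₀ ^ 2 ≤ L := ((le_max_right _ _).trans (le_max_right _ _)).trans hL
  have hL1 : 1 ≤ L := hM₁.trans hLM
  have hL0 : 0 < L := by linarith
  refine ⟨min (min 1 (1 / L)) (e / (4 * C₂ * L ^ 3)), by positivity, ?_⟩
  intro η δ ρ hη0 hη hδ hρη u uu hu hd x hx t ht1 ht2 q hxq
  have hρ := hu.ρ_pos
  set η₁ : ℝ := e / (4 * C₂ * L ^ 3) with hη₁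
  have hη₁0 : 0 < η₁ := by positivity
  have hη1 : η ≤ η₁ := hη.trans (min_le_right _ _)
  have hδ1 : δ ≤ η₁ := hδ.trans (min_le_right _ _)
  have hρ1 : ρ ≤ η₁ := hρη.trans (min_le_right _ _)
  have hρ1' : ρ ≤ 1 := hρη.trans ((min_le_left _ _).trans (min_le_left _ _))
  have hηL : η * L ≤ 1 := by
    have : η ≤ 1 / L := hη.trans ((min_le_left _ _).trans (min_le_right _ _))
    rwa [le_div_iff₀ hL0] at this
  have hη₁L : η₁ * L ^ 3 = e / (4 * C₂) := by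
    rw [hη₁]; field_simp
  have ht : 0 < t := lt_of_lt_of_le (by positivity) ht1
  have hRρ : 0 < R * ρ := by positivity
  have hRρ1 := hu.Rρ
  -- the two centres
  have hxo : dist x o < R / 2 * ρ := mem_ball.1 hx
  have htL : √t ≤ ρ / (4 * C₀) := by
    rw [Real.sqrt_le_left (by positivity), div_pow]
    refine ht2.trans ?_
    have : (4 * C₀) ^ 2 ≤ L := by linarith
    gcongr
  have hq1 : C₀ * √t ≤ ρ / 4 := by
    calc C₀ * √t ≤ C₀ * (ρ / (4 * C₀)) := by gcongr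
      _ = ρ / 4 := by field_simp
  have hρR : ρ ≤ R * ρ := le_mul_of_one_le_left hρ.le hR
  have hqo : dist q o < 3 / 4 * (R * ρ) := by
    have h1 := dist_triangle q x o
    rw [dist_comm q x] at h1
    linarith
  have hxo' : dist x o < 3 / 4 * (R * ρ) := by linarith
  have hxo1 : dist x o ≤ 1 := by linarith
  have htΓ : t ≤ Γ * t := le_mul_of_one_le_left ht.le hΓ1
  obtain ⟨hδ0, -, -, kx1, kx2⟩ := key L R Q η δ ρ u uu hLC hR hQ hη0.le hηL hu hd x hxo' t t ht1 ht2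
    le_rfl htΓ
  obtain ⟨-, hs1, -, kq1, kq2⟩ := key L R Q η δ ρ u uu hLC hR hQ hη0.le hηL hu hd q hqo t (Γ * t)
    ht1 ht2 htΓ le_rfl
  have hs0 : 0 < Γ * t := mul_pos hΓ0 ht
  have hs2 : Γ * t ≤ 1 / 2 := by
    have h1 : 1 * (Γ * t) ≤ A ^ 2 * (Γ * t) := mul_le_mul_of_nonneg_right hA2 hs0.le
    linarith
  -- domination of the kernel
  have hdom : ∀ z, p t x z ≤ a * p (Γ * t) q z := by
    intro z
    have h1 := h.kb.p_le (z := z) (Γ := Γ) ht (le_of_eq (by rw [hΓ])) le_rfl hs2 hxq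
    refine h1.trans ?_
    have p0 := h.ker.nonneg (Γ * t) hs0 q z
    have c0 := cG_pos (n := n) (C₀ := C₀) hA hΓ0
    have h2 : Real.exp (2 * A * dist x o) ≤ Real.exp (2 * A) :=
      Real.exp_le_exp.2 (mul_le_of_le_one_right (by linarith) hxo1)
    rw [ha]
    gcongr
  -- the bound at `x` for the vertex `q`
  have ix : Integrable (fun z => p t x z * |Hd m n x t uu z|) m := pt_int_abs h.ker ht kx1
  obtain ⟨iq, hq2⟩ := pt_dom h.ker ht ha0.le hdom (Hd_meas hu q t) (pt_int_abs h.ker hs0 kq1)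
  have hq3 : pt m p t (fun z => |Hd m n q t uu z|) x ≤ a * (C * t * sm C L η δ t) :=
    hq2.trans (mul_le_mul_of_nonneg_left kq2 ha0.le)
  have hsm0 : 0 ≤ sm C L η δ t := by
    unfold sm
    have := Real.exp_pos (-(L / C))
    positivity
  have htot := (mean_diff h hu ht iq ix).trans (add_le_add hq3 kx2)
  have e0 : a * (C * t * sm C L η δ t) + C * t * sm C L η δ t = C₂ * (t * sm C L η δ t) := by
    rw [hC₂]; ring
  rw [e0] at htot
  refine htot.trans (stR_real ht hρ hC₂0.le hsm0 ?_ ?_ (L := L))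
  · rw [div_le_iff₀ (by positivity)] at ht1
    linarith
  · have hL3 : L ^ 2 ≤ L ^ 3 := pow_le_pow_right₀ hL1 (by norm_num)
    have s1 : δ * L ^ 2 ≤ e / (4 * C₂) := by
      rw [← hη₁L]
      exact mul_le_mul hδ1 hL3 (by positivity) hη₁0.le
    have s2 : t * L ^ 2 ≤ e / (4 * C₂) := by
      rw [← hη₁L]
      refine mul_le_mul ?_ hL3 (by positivity) hη₁0.le
      calc t ≤ ρ ^ 2 / L := ht2
        _ ≤ ρ ^ 2 := div_le_self (by positivity) hL1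
        _ = ρ * ρ := sq ρ
        _ ≤ ρ := mul_le_of_le_one_left hρ.le hρ1'
        _ ≤ η₁ := hρ1
    have s3 : η * L * L ^ 2 ≤ e / (4 * C₂) := by
      rw [← hη₁L]
      calc η * L * L ^ 2 = η * L ^ 3 := by ring
        _ ≤ η₁ * L ^ 3 := by gcongr
    have s4 := hexp L hLM
    have e1 : sm C L η δ t * L ^ 2 = δ * L ^ 2 + t * L ^ 2 + η * L * L ^ 2
        + Real.exp (-(L / C)) * L ^ 2 := by unfold sm; ring
    rw [e1]
    calc C₂ * (δ * L ^ 2 + t * L ^ 2 + η * L * L ^ 2 + Real.exp (-(L / C)) * L ^ 2)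
        ≤ C₂ * (e / (4 * C₂) + e / (4 * C₂) + e / (4 * C₂) + e / (4 * C₂)) := by gcongr
      _ = e := by field_simp; ring

/-- **The start of (R1)**, as a block. -/
theorem blk_StR : Blk_StR.{u} := by
  intro M _ _ _ _ _ m n K o A p h
  refine ⟨1, le_rfl, fun Q hQ => ⟨1, le_rfl, fun R hR C₀ e hC₀ he => ?_⟩⟩
  obtain ⟨M₀, hM₀, key⟩ := stR h hQ hR hC₀ he
  refine ⟨M₀, hM₀, fun M' hM' => ?_⟩
  obtain ⟨η₁, hη₁, key⟩ := key M' hM'
  refine ⟨η₁, hη₁, fun η δ ρ h1 h2 h3 h4 u uu h5 h6 x hx t ht1 ht2 q hq => ?_⟩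
  exact ⟨_, _, key η δ ρ h1 h2 h3 h4 u uu h5 h6 x hx t ht1 ht2 q hq⟩

end Vale.Agent.P242.H696
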