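import Vale.Agent.P242.H696.Bridge

/-!
# P242, Part B: the frozen statement `H71.PartB`

Assembly of the step lemma (`H975/Step.lean`, with the gluing of `H266`), the start, the iteration
and the limit (`H588/PB.lean`, `H744/Limit.lean`), and the choice of the constants.
-/

open Metric
open scoped RealInnerProductSpace

noncomputable section

universe u

namespace Vale.Agent.P242.H696

open Vale.Agent.P242.PB

/-- monotonicity of the hypotheses in `ε` -/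
lemma hyp_mono {n : ℕ} {X : Type u} [MetricSpace X] {S : H71.PB n X}
    {r₀ C₀ C₁ Λ τ B ε ε' δ : ℝ} (hΛ : 0 < Λ) (hε : ε ≤ ε')
    (H : S.Hyp r₀ C₀ C₁ Λ τ B ε δ) : S.Hyp r₀ C₀ C₁ Λ τ B ε' δ where
  r₀_pos := H.r₀_pos
  diam := H.diam
  symm := H.symm
  pos := H.pos
  h1 := fun k x y hd => (H.h1 k x y hd).trans
    (mul_le_mul_of_nonneg_right hε (div_pos H.r₀_pos (pow_pos hΛ k)).le)
  h1' := H.h1'
  h2 := H.h2
  h3 := H.h3
  h4a := fun k x v => (H.h4a k x v).trans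
    (mul_le_mul_of_nonneg_right hε (nonneg_of_hyp H k x v))
  h4b := H.h4b
  h4c := H.h4c
  h5 := H.h5
  h6a := H.h6a
  h6b := H.h6b
  h6c := H.h6c
  h7 := H.h7

/-- **Part B.** -/
theorem partB : H71.PartB.{u} := by
  intro n _
  obtain ⟨c, hc, hglue⟩ := H266.glue n
  have hρ : 0 ≤ √(n : ℝ) := Real.sqrt_nonneg _
  obtain ⟨C₀, hC₀⟩ : ∃ C₀ : ℝ, C₀ = 5 / 2 * (√(n : ℝ) + 4) := ⟨_, rfl⟩
  have hC₀10 : 10 ≤ C₀ := by rw [hC₀]; linarith
  refine ⟨C₀, by linarith, fun C₁ hC₁ => ?_⟩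
  obtain ⟨θ, θ', hθ, hθ', c', hc', h2⟩ := exists_const hρ hc hC₀ hC₁
  have hθ0 : 0 < θ := by linarith
  refine ⟨min c' (1 / 100), lt_min hc' (by norm_num), fun Λ τ hτ hΛτ B hB => ?_⟩
  have hΛ0 : 0 < Λ := by
    by_contra hneg
    have h3 : τ ^ 2 ≤ 0 := hΛτ.trans
      (mul_nonpos_of_nonneg_of_nonpos (lt_min hc' (by norm_num)).le (not_lt.1 hneg))
    nlinarith
  have hΛc : τ ^ 2 ≤ c' * Λ :=
    hΛτ.trans (mul_le_mul_of_nonneg_right (min_le_left _ _) hΛ0.le)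
  have hΛ100 : 100 ≤ Λ := by
    have h3 : τ ^ 2 ≤ 1 / 100 * Λ :=
      hΛτ.trans (mul_le_mul_of_nonneg_right (min_le_right _ _) hΛ0.le)
    nlinarith
  obtain ⟨B3, hB3, h3⟩ := h2 Λ τ hτ hΛc B hB
  obtain ⟨ε₁, hε₁, h4⟩ := h3 (1 / (200 * Λ)) (by positivity)
  -- the constants
  have hC₁0 : 0 < C₁ := by linarith
  have hB0 : 0 < B := by linarith
  have hθB : 0 < θ + 2 * B3 := by linarith
  obtain ⟨e, he⟩ : ∃ e : ℝ, e = min ε₁ (min (1 / (100 * Λ)) (min (1 / (20 * C₁))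
    (1 / (100 * (θ + 2 * B3))))) := ⟨_, rfl⟩
  have he0 : 0 < e := by rw [he]; positivity
  refine ⟨e / (1 + B), by positivity, ?_⟩
  intro ε δ hε hεe hδ hδe X _ S r₀ H
  -- enlarge ε
  obtain ⟨ε', hε'⟩ : ∃ ε' : ℝ, ε' = max ε (B * δ) := ⟨_, rfl⟩
  have hεε' : ε ≤ ε' := by rw [hε']; exact le_max_left _ _
  have hδε : B * δ ≤ ε' := by rw [hε']; exact le_max_right _ _
  have hε'0 : 0 < ε' := hε.trans_le hεε'
  have hee : e / (1 + B) ≤ e := div_le_self he0.le (by linarith)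
  have hε'e : ε' ≤ e := by
    rw [hε']
    refine max_le (hεe.trans hee) ?_
    have h5 : B * δ ≤ B * (e / (1 + B)) := mul_le_mul_of_nonneg_left hδe hB0.le
    refine h5.trans ?_
    rw [mul_div_assoc', div_le_iff₀ (by linarith)]
    nlinarith
  have hδe' : δ ≤ e := hδe.trans hee
  have H' : S.Hyp r₀ C₀ C₁ Λ τ B ε' δ := hyp_mono hΛ0 hεε' H
  have e1 : e ≤ ε₁ := by rw [he]; exact min_le_left _ _
  have e2 : e ≤ 1 / (100 * Λ) := by rw [he]; exact (min_le_right _ _).trans (min_le_left _ _)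
  have e3 : e ≤ 1 / (20 * C₁) := by
    rw [he]; exact (min_le_right _ _).trans ((min_le_right _ _).trans (min_le_left _ _))
  have e4 : e ≤ 1 / (100 * (θ + 2 * B3)) := by
    rw [he]; exact (min_le_right _ _).trans ((min_le_right _ _).trans (min_le_right _ _))
  obtain ⟨κ, s0, hκ0, hκ, h5⟩ :=
    h4 ε' δ hε'0 (hε'e.trans e1) hδ (hδe'.trans e1) hδε r₀ H.r₀_pos
  rw [le_div_iff₀ (by positivity)] at e2 e3 e4 hκ
  have SP : SmallPar (par r₀ C₀ C₁ Λ τ B ε' δ) κ θ θ' B3 :=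
    { r0 := H.r₀_pos
      hΛ := hΛ100
      C0 := show 1 ≤ C₀ by linarith
      C1 := hC₁
      B := hB0.le
      ε0 := hε'0.le
      εΛ := by
        change 100 * ε' * Λ ≤ 1
        have h6 := mul_le_mul_of_nonneg_right hε'e (show 0 ≤ 100 * Λ by positivity)
        linarith
      εC := by
        change 20 * C₁ * ε' ≤ 1
        have h6 := mul_le_mul_of_nonneg_right hε'e (show 0 ≤ 20 * C₁ by positivity)
        linarith
      Bδ := hδε
      κ0 := hκ0
      κΛ := by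
        change 200 * κ * Λ ≤ 1
        linarith
      θ1 := hθ
      θ'1 := hθ'
      hB3 := hB3
      sm := by
        change θ * ε' + 2 * B3 * δ ≤ 1 / 50
        have h8 : θ * ε' ≤ θ * e := mul_le_mul_of_nonneg_left hε'e hθ0.le
        have h9 : 2 * B3 * δ ≤ 2 * B3 * e := mul_le_mul_of_nonneg_left hδe' (by linarith)
        linarith }
  rcases isEmpty_or_nonempty X with hX | hX
  · exact ⟨fun _ => 0, fun x => (hX.false x).elim, fun _ x => (hX.false x).elim⟩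
  obtain ⟨G, hG1, hG2⟩ := theoremB_of_step SP (hyp_of H')
    (fun k s => step hglue h5.num (hyp_of H') h5.num2 h5.num3 s)
  refine ⟨G, ?_, ?_⟩
  · intro x y
    have := hG1 x y
    rw [dist_eq_norm]
    exact ⟨by linarith [this.1], this.2⟩
  · intro hXc x₀ k hD z hz
    have hr : 0 < H71.rr r₀ Λ k := div_pos H.r₀_pos (pow_pos hΛ0 k)
    have hz' : ‖z - G x₀‖ ≤ H71.rr r₀ Λ k / 4 := by
      rw [mem_ball, dist_eq_norm] at hz
      exact hz.le
    have hden : DenseAt (par r₀ C₀ C₁ Λ τ B ε' δ)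
        (toData S H'.symm (nonneg_of_hyp H')) x₀ k := by
      intro y hy j hj v hv
      have hy' : y ∈ ball x₀ (10 * H71.rr r₀ Λ k) := by
        rw [mem_ball, dist_comm]
        exact hy
      have hv' : S.nrm j y v ≤ H71.rr r₀ Λ j := hv
      obtain ⟨y', h8, h9⟩ := hD y hy' j hj v hv'
      refine ⟨y', h8, ?_⟩
      have h10 : 0 < H71.rr r₀ Λ j := div_pos H.r₀_pos (pow_pos hΛ0 j)
      exact le_trans h9 (mul_le_mul_of_nonneg_right hεε' h10.le)
    obtain ⟨x, hx1, hx2⟩ := hG2 x₀ k hden z hz'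
    refine ⟨x, ?_, hx2⟩
    rw [mem_ball, dist_comm]
    have hx1' : dist x₀ x ≤ 8 * H71.rr r₀ Λ k := hx1
    linarith

end Vale.Agent.P242.H696
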