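import Vale.Agent.P242.H975.Step
import Vale.Agent.P242.H266.Glue
import Vale.Agent.P242.H71.PB

/-!
# P242, Part B: choice of the constants in the step lemma
-/

open Metric
open scoped RealInnerProductSpace

noncomputable section

namespace Vale.Agent.P242.H696

open Vale.Agent.P242.PB

/-- smallness conditions in the order of the choice of the constants -/
structure Small (P : Par) (ρ c κ θ θ' B3 s0 : ℝ) : Prop where
  hr0 : 0 < P.r0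
  hρ0 : 0 ≤ ρ
  hc1 : 1 ≤ c
  hC1 : 1 ≤ P.C1
  hC0 : P.C0 = 5 / 2 * (ρ + 4)
  hΛ100 : 100 ≤ P.Λ
  hΛC : P.C0 ≤ P.Λ
  hτ : 1 ≤ P.τ
  hB : 1 ≤ P.B
  hε0 : 0 < P.ε
  hδ0 : 0 ≤ P.δ
  hεB : P.ε * (2 * P.B) ≤ 1
  hεC : P.ε * (2 * P.C1 * P.C0) ≤ 1
  hεΛ : P.ε * (100 * P.Λ) ≤ 1
  hεθ : P.ε * (40 * θ) ≤ 1
  hδB3 : P.δ * (80 * B3) ≤ 1
  hδε : P.B * P.δ ≤ P.ε
  hK1 : 8 * (P.τ * (P.C1 + 6)) ≤ P.Λ
  hθ : θ = P.C1 * P.C0 + 2
  hθ' : θ' = 6 * c ^ 2 * (P.C1 * P.C0 + 2) + P.C1 + 4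
  hs0 : s0 = 1 / (P.C1 * P.C0 + 9 * P.C0 * θ' + P.C1 + 2 * θ' + 1)
  hqs : K1 P ^ 2 / P.Λ ≤ s0
  hB3 : B3 = c * (15 * (2 * P.C0 + 2)) ^ 2 * (2 * B1 P θ) * P.B
  hκ : κ = 12 * gam P c P.C0 θ
  k1 : κ ≤ 1 / 100
  k2 : κ * (9 * (5 * P.C0 + 4)) ≤ 1
  k3 : κ * (270 * B1 P θ * P.C0) ≤ 1
  k4 : κ * (72 * B1 P θ) ≤ 1

variable {P : Par} {ρ c κ θ θ' B3 s0 : ℝ}

namespace Small

variable (h : Small P ρ c κ θ θ' B3 s0)
include h

lemma C0_ge : 10 ≤ P.C0 := by rw [h.hC0]; linarith [h.hρ0]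

lemma θ_pos : 0 < θ := by
  have := h.C0_ge
  have := h.hC1
  rw [h.hθ]; positivity

lemma θ'_pos : 0 < θ' := by
  have := h.C0_ge
  have := h.hC1
  rw [h.hθ']; positivity

lemma K1_pos : 0 < K1 P := by
  have := h.hC1
  have := h.hτ
  unfold K1; positivity

lemma B1_pos : 0 < B1 P θ := by
  have := h.K1_pos
  have := h.hB
  have := h.θ_pos
  unfold B1; positivity

lemma B3_pos : 0 < B3 := by
  have := h.B1_pos
  have := h.hB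
  have := h.hc1
  have := h.C0_ge
  rw [h.hB3]; positivity

lemma gam_nonneg : 0 ≤ gam P c P.C0 θ := by
  have := h.B1_pos
  have := h.hc1
  have := h.C0_ge
  unfold gam K2; positivity

lemma κ_nonneg : 0 ≤ κ := by rw [h.hκ]; linarith [h.gam_nonneg]

lemma num : Num P ρ c P.C0 θ θ' :=
  { hr0 := h.hr0
    hρ0 := h.hρ0
    hc1 := h.hc1
    hC1 := h.hC1
    hC2 := h.hC0.ge
    hC20 := le_refl _
    hΛ2 := by linarith [h.hΛ100]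
    hΛC := h.hΛC
    hτ := h.hτ
    hB := h.hB
    hε0 := h.hε0
    hε1 := by nlinarith [h.hεΛ, h.hΛ100, h.hε0]
    hδ0 := h.hδ0
    hεB := by linarith [h.hεB]
    hεC := by linarith [h.hεC]
    hδε := h.hδε
    hθ0 := h.θ_pos.le
    hθ'0 := h.θ'_pos.le
    hK1 := h.hK1
    hεΛ := by linarith [h.hεΛ] }

lemma num2 : Num2 P P.C0 κ θ B3 :=
  { hκ0 := h.κ_nonneg
    hB30 := h.B3_pos.le
    hs := by linarith [h.hεθ, h.hδB3]
    hη := by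
      have h1 : 0 ≤ P.τ * (P.C1 + 6) := h.K1_pos.le
      have h2 := mul_le_mul_of_nonneg_right h.k2 h1
      have h3 := h.hK1
      linarith }

lemma q1_nonneg : 0 ≤ q1 P κ := by
  have := h.κ_nonneg
  have := h.K1_pos
  have := h.hΛ100
  unfold q1; positivity

lemma q1_le : q1 P κ ≤ κ := by
  have h1 := h.hΛ100
  unfold q1
  rw [div_le_iff₀ (by linarith)]
  have h2 := h.K1_pos
  have h3 : K1 P ≤ P.Λ := by
    have h4 := h.hK1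
    unfold K1 at h2 ⊢; linarith
  exact mul_le_mul_of_nonneg_left h3 h.κ_nonneg

lemma sums : P.C1 * P.C0 * (K1 P ^ 2 / P.Λ) + 9 * P.C0 * θ' * (K1 P ^ 2 / P.Λ) +
    P.C1 * (K1 P ^ 2 / P.Λ) + 2 * θ' * (K1 P ^ 2 / P.Λ) ≤ 1 := by
  have a1 := h.C0_ge
  have a2 := h.hC1
  have a3 := h.θ'_pos
  have h7 : 0 < P.C1 * P.C0 + 9 * P.C0 * θ' + P.C1 + 2 * θ' + 1 := by positivity
  have h8 : 0 ≤ K1 P ^ 2 / P.Λ := by
    have := h.hΛ100; positivity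
  have h9 : (P.C1 * P.C0 + 9 * P.C0 * θ' + P.C1 + 2 * θ' + 1) * (K1 P ^ 2 / P.Λ) ≤ 1 := by
    calc _ ≤ (P.C1 * P.C0 + 9 * P.C0 * θ' + P.C1 + 2 * θ' + 1) * s0 :=
          mul_le_mul_of_nonneg_left h.hqs h7.le
      _ = 1 := by rw [h.hs0]; field_simp
  linarith

lemma num3 : Num3 P c P.C0 κ θ θ' B3 := by
  have hg : gam P c P.C0 θ = κ / 12 := by rw [h.hκ]; ring
  have hκ0 := h.κ_nonneg
  have hb0 := h.B1_pos
  have hC0 := h.C0_ge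
  have hC1 := h.hC1
  have hΛ := h.hΛ100
  have hθ'0 := h.θ'_pos
  have s1 := h.sums
  have s0' : 0 ≤ K1 P ^ 2 / P.Λ := by positivity
  have p1 : 0 ≤ P.C1 * P.C0 * (K1 P ^ 2 / P.Λ) := by positivity
  have p2 : 0 ≤ 9 * P.C0 * θ' * (K1 P ^ 2 / P.Λ) := by positivity
  have p3 : 0 ≤ P.C1 * (K1 P ^ 2 / P.Λ) := by positivity
  have p4 : 0 ≤ 2 * θ' * (K1 P ^ 2 / P.Λ) := by positivity
  have hth0 : th0 P P.C0 θ' ≤ P.C1 * P.C0 + 1 := by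
    unfold th0
    rw [mul_div_assoc (P.C1 * P.C0), mul_div_assoc (9 * P.C0 * θ')]
    linarith
  have hb : 135 * B1 P θ * P.C0 * q1 P κ ≤ 1 / 2 := by
    have := mul_le_mul_of_nonneg_left h.q1_le (show 0 ≤ 135 * B1 P θ * P.C0 by positivity)
    linarith [h.k3]
  have hb' : 36 * B1 P θ * q1 P κ ≤ 1 / 2 := by
    have := mul_le_mul_of_nonneg_left h.q1_le (show 0 ≤ 36 * B1 P θ by positivity)
    linarith [h.k4]
  have hth1 : th1 P P.C0 θ θ' κ ≤ P.C1 * P.C0 + 3 / 2 := by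
    unfold th1; linarith
  have hg2 : (κ / 12) ^ 2 ≤ 1 / 20 := by
    have h1 := h.k1
    have : 0 ≤ κ / 12 := by positivity
    nlinarith
  refine
    { hγ := by rw [hg]; linarith [h.k1]
      hκγ := by rw [hg]; linarith
      hκ := h.k1
      hB3 := by unfold K2; exact h.hB3.ge
      hθ := by rw [hg, h.hθ]; rw [h.hθ] at hth1; linarith
      hθ' := ?_ }
  have h10 : 6 * c ^ 2 * th1 P P.C0 θ θ' κ ≤ 6 * c ^ 2 * (P.C1 * P.C0 + 2) :=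
    mul_le_mul_of_nonneg_left (by linarith) (by positivity)
  rw [hg, mul_div_assoc P.C1, mul_div_assoc (2 * θ')]
  have h11 := h.hθ'
  linarith

end Small

/-- the constants -/
def par (r₀ C₀ C₁ Λ τ B ε δ : ℝ) : Par := ⟨C₀, C₁, Λ, τ, B, ε, δ, r₀⟩

/-- All numerical conditions of the step lemma, from the order of the constants of Part B. -/
theorem exists_const {ρ c C2 C₁ : ℝ} (hρ : 0 ≤ ρ) (hc : 1 ≤ c) (hC2 : C2 = 5 / 2 * (ρ + 4))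
    (hC₁ : 1 ≤ C₁) : ∃ θ θ' : ℝ, C₁ ≤ θ ∧ C₁ ≤ θ' ∧ ∃ c' : ℝ, 0 < c' ∧
    ∀ Λ τ : ℝ, 1 ≤ τ → τ ^ 2 ≤ c' * Λ → ∀ B : ℝ, 1 ≤ B → ∃ B3 : ℝ, 0 ≤ B3 ∧
      ∀ κ₀ : ℝ, 0 < κ₀ → ∃ ε₀ : ℝ, 0 < ε₀ ∧ ∀ ε δ : ℝ, 0 < ε → ε ≤ ε₀ → 0 < δ → δ ≤ ε₀ →
        B * δ ≤ ε → ∀ r₀ : ℝ, 0 < r₀ → ∃ κ s0 : ℝ, 0 ≤ κ ∧ κ ≤ κ₀ ∧
          Small (par r₀ C2 C₁ Λ τ B ε δ) ρ c κ θ θ' B3 s0 := by
  have hC210 : 10 ≤ C2 := by rw [hC2]; linarith
  have hC20 : 0 < C2 := by linarith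
  have hC₁0 : 0 < C₁ := by linarith
  have hc0 : 0 < c := by linarith
  obtain ⟨θ, hθ⟩ : ∃ θ : ℝ, θ = C₁ * C2 + 2 := ⟨_, rfl⟩
  obtain ⟨θ', hθ'⟩ : ∃ θ' : ℝ, θ' = 6 * c ^ 2 * (C₁ * C2 + 2) + C₁ + 4 := ⟨_, rfl⟩
  have hθ0 : 0 < θ := by rw [hθ]; positivity
  have hθ'0 : 0 < θ' := by rw [hθ']; positivity
  have hθC : C₁ ≤ θ := by rw [hθ]; nlinarith
  have hθ'C : C₁ ≤ θ' := by rw [hθ']; nlinarith [mul_pos (pow_pos hc0 2) hθ0, hθ]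
  obtain ⟨s0, hs0⟩ : ∃ s0 : ℝ, s0 = 1 / (C₁ * C2 + 9 * C2 * θ' + C₁ + 2 * θ' + 1) := ⟨_, rfl⟩
  have hs0' : 0 < s0 := by rw [hs0]; positivity
  refine ⟨θ, θ', hθC, hθ'C, min (1 / 100) (min (1 / C2) (min (1 / (8 * (C₁ + 6)))
    (s0 / (C₁ + 6) ^ 2))), by positivity, ?_⟩
  intro Λ τ hτ hΛτ B hB
  have hτ2 : 1 ≤ τ ^ 2 := by nlinarith
  have hΛ0 : 0 < Λ := by
    by_contra hneg
    have h3 : τ ^ 2 ≤ 0 := hΛτ.trans
      (mul_nonpos_of_nonneg_of_nonpos (by positivity) (not_lt.1 hneg))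
    linarith
  have hm1 : τ ^ 2 ≤ 1 / 100 * Λ :=
    hΛτ.trans (mul_le_mul_of_nonneg_right (min_le_left _ _) hΛ0.le)
  have hm2 : τ ^ 2 ≤ 1 / C2 * Λ :=
    hΛτ.trans (mul_le_mul_of_nonneg_right ((min_le_right _ _).trans (min_le_left _ _)) hΛ0.le)
  have hm3 : τ ^ 2 ≤ 1 / (8 * (C₁ + 6)) * Λ :=
    hΛτ.trans (mul_le_mul_of_nonneg_right
      ((min_le_right _ _).trans ((min_le_right _ _).trans (min_le_left _ _))) hΛ0.le)
  have hm4 : τ ^ 2 ≤ s0 / (C₁ + 6) ^ 2 * Λ :=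
    hΛτ.trans (mul_le_mul_of_nonneg_right
      ((min_le_right _ _).trans ((min_le_right _ _).trans (min_le_right _ _))) hΛ0.le)
  have hΛ100 : 100 ≤ Λ := by linarith
  have hΛC2 : C2 ≤ Λ := by
    rw [div_mul_eq_mul_div, one_mul, le_div_iff₀ hC20] at hm2
    nlinarith
  have hK1Λ : 8 * (τ * (C₁ + 6)) ≤ Λ := by
    rw [div_mul_eq_mul_div, one_mul, le_div_iff₀ (by positivity)] at hm3
    have : τ ≤ τ ^ 2 := by nlinarith
    have h6 : 0 < C₁ + 6 := by linarith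
    nlinarith [mul_le_mul_of_nonneg_right this h6.le]
  -- K1 ^ 2 / Λ
  obtain ⟨q, hq⟩ : ∃ q : ℝ, q = τ * (C₁ + 6) := ⟨_, rfl⟩
  have hq0 : 0 < q := by rw [hq]; positivity
  have hqs : q ^ 2 / Λ ≤ s0 := by
    rw [div_le_iff₀ hΛ0, hq, mul_pow]
    rw [div_mul_eq_mul_div, le_div_iff₀ (by positivity)] at hm4
    exact hm4
  have hB0 : 0 < B := by linarith
  obtain ⟨b1, hb1⟩ : ∃ b1 : ℝ, b1 = (B + θ) * q ^ 2 := ⟨_, rfl⟩
  have hb10 : 0 < b1 := by rw [hb1]; positivity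
  obtain ⟨M, hM⟩ : ∃ M : ℝ, M = c * (15 * (2 * C2 + 2)) ^ 2 * (2 * b1) * 5 := ⟨_, rfl⟩
  have hM0 : 0 < M := by rw [hM]; positivity
  obtain ⟨B3, hB3⟩ : ∃ B3 : ℝ, B3 = c * (15 * (2 * C2 + 2)) ^ 2 * (2 * b1) * B := ⟨_, rfl⟩
  have hB30 : 0 < B3 := by rw [hB3]; positivity
  refine ⟨B3, hB30.le, fun κ₀ hκ₀ => ?_⟩
  obtain ⟨κ₁, hκ₁⟩ : ∃ κ₁ : ℝ, κ₁ = min κ₀ (min (1 / 100) (min (1 / (9 * (5 * C2 + 4)))
    (min (1 / (270 * b1 * C2)) (1 / (72 * b1))))) := ⟨_, rfl⟩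
  have hκ₁0 : 0 < κ₁ := by rw [hκ₁]; positivity
  refine ⟨min ((κ₁ / (12 * M)) ^ 2) (min (1 / (2 * B)) (min (1 / (2 * C₁ * C2))
    (min (1 / (100 * Λ)) (min (1 / (40 * θ)) (1 / (80 * B3)))))), by positivity, ?_⟩
  intro ε δ hε hεe hδ hδe hBδ r₀ hr₀
  have e1 : ε ≤ (κ₁ / (12 * M)) ^ 2 := hεe.trans (min_le_left _ _)
  have e2 : ε ≤ 1 / (2 * B) := hεe.trans ((min_le_right _ _).trans (min_le_left _ _))
  have e3 : ε ≤ 1 / (2 * C₁ * C2) :=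
    hεe.trans ((min_le_right _ _).trans ((min_le_right _ _).trans (min_le_left _ _)))
  have e4 : ε ≤ 1 / (100 * Λ) := hεe.trans ((min_le_right _ _).trans ((min_le_right _ _).trans
    ((min_le_right _ _).trans (min_le_left _ _))))
  have e5 : ε ≤ 1 / (40 * θ) := hεe.trans ((min_le_right _ _).trans ((min_le_right _ _).trans
    ((min_le_right _ _).trans ((min_le_right _ _).trans (min_le_left _ _)))))
  have d1 : δ ≤ 1 / (80 * B3) := hδe.trans ((min_le_right _ _).trans ((min_le_right _ _).trans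
    ((min_le_right _ _).trans ((min_le_right _ _).trans (min_le_right _ _)))))
  rw [le_div_iff₀ (by positivity)] at e2 e3 e4 e5 d1
  obtain ⟨κ, hκ⟩ : ∃ κ : ℝ, κ = 12 * (M * √ε) := ⟨_, rfl⟩
  have hsε : √ε ≤ κ₁ / (12 * M) := Real.sqrt_le_iff.2 ⟨by positivity, e1⟩
  have hκ0 : 0 ≤ κ := by rw [hκ]; positivity
  have hκκ₁ : κ ≤ κ₁ := by
    rw [le_div_iff₀ (by positivity)] at hsε
    rw [hκ]; linarith
  have k0 : κ ≤ κ₀ := hκκ₁.trans (by rw [hκ₁]; exact min_le_left _ _)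
  have k1 : κ ≤ 1 / 100 :=
    hκκ₁.trans (by rw [hκ₁]; exact (min_le_right _ _).trans (min_le_left _ _))
  have k2 : κ ≤ 1 / (9 * (5 * C2 + 4)) := hκκ₁.trans (by
    rw [hκ₁]; exact (min_le_right _ _).trans ((min_le_right _ _).trans (min_le_left _ _)))
  have k3 : κ ≤ 1 / (270 * b1 * C2) := hκκ₁.trans (by
    rw [hκ₁]
    exact (min_le_right _ _).trans ((min_le_right _ _).trans
      ((min_le_right _ _).trans (min_le_left _ _))))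
  have k4 : κ ≤ 1 / (72 * b1) := hκκ₁.trans (by
    rw [hκ₁]
    exact (min_le_right _ _).trans ((min_le_right _ _).trans
      ((min_le_right _ _).trans (min_le_right _ _))))
  rw [le_div_iff₀ (by positivity)] at k2 k3 k4
  obtain ⟨P, hP⟩ : ∃ P : Par, P = par r₀ C2 C₁ Λ τ B ε δ := ⟨_, rfl⟩
  have P1 : P.C0 = C2 := by rw [hP]; rfl
  have P2 : P.C1 = C₁ := by rw [hP]; rfl
  have P3 : P.Λ = Λ := by rw [hP]; rfl
  have P4 : P.τ = τ := by rw [hP]; rfl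
  have P5 : P.B = B := by rw [hP]; rfl
  have P6 : P.ε = ε := by rw [hP]; rfl
  have P7 : P.δ = δ := by rw [hP]; rfl
  have P8 : P.r0 = r₀ := by rw [hP]; rfl
  have hK1 : K1 P = q := by unfold K1; rw [P4, P2, hq]
  have hB1 : B1 P θ = b1 := by
    unfold B1; rw [hK1, P5, hb1]
  have hgam : gam P c P.C0 θ = M * √ε := by
    unfold gam K2; rw [hB1, hM, P1, P6]
    ring
  refine ⟨κ, s0, hκ0, k0, ?_⟩
  rw [← hP]
  exact
    { hr0 := by rw [P8]; exact hr₀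
      hρ0 := hρ
      hc1 := hc
      hC1 := by rw [P2]; exact hC₁
      hC0 := by rw [P1]; exact hC2
      hΛ100 := by rw [P3]; exact hΛ100
      hΛC := by rw [P1, P3]; exact hΛC2
      hτ := by rw [P4]; exact hτ
      hB := by rw [P5]; exact hB
      hε0 := by rw [P6]; exact hε
      hδ0 := by rw [P7]; exact hδ.le
      hεB := by rw [P6, P5]; exact e2
      hεC := by rw [P6, P2, P1]; exact e3
      hεΛ := by rw [P6, P3]; exact e4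
      hεθ := by rw [P6]; exact e5
      hδB3 := by rw [P7]; exact d1
      hδε := by rw [P5, P7, P6]; exact hBδ
      hK1 := by rw [P4, P2, P3]; exact hK1Λ
      hθ := by rw [P2, P1]; exact hθ
      hθ' := by rw [P2, P1]; exact hθ'
      hs0 := by rw [P2, P1]; exact hs0
      hqs := by rw [hK1, P3]; exact hqs
      hB3 := by rw [P1, hB1, P5]; exact hB3
      hκ := by rw [hgam]; exact hκ
      k1 := k1
      k2 := by rw [P1]; exact k2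
      k3 := by rw [hB1, P1]; exact k3
      k4 := by rw [hB1]; exact k4 }

end Vale.Agent.P242.H696
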