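import Mathlib.Analysis.InnerProductSpace.Basic
import Mathlib.Analysis.Normed.Module.FiniteDimension
import Mathlib.Analysis.Seminorm
import Mathlib.Topology.Algebra.Module.FiniteDimension

/-!
# The seminorm of a positive semidefinite bilinear form
-/

open scoped Topology

noncomputable section

namespace Vale.Agent.P242.H696

variable {E : Type*} [AddCommGroup E] [Module ℝ E]

/-- Cauchy-Schwarz for a positive semidefinite symmetric form -/
lemma form_cs (g : E →ₗ[ℝ] E →ₗ[ℝ] ℝ) (hs : ∀ v w, g v w = g w v) (hp : ∀ v, 0 ≤ g v v)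
    (v w : E) : g v w ^ 2 ≤ g v v * g w w := by
  have key : ∀ t : ℝ, 0 ≤ g w w * (t * t) + (2 * g v w) * t + g v v := by
    intro t
    have h := hp (v + t • w)
    simp only [map_add, map_smul, LinearMap.add_apply, LinearMap.smul_apply, smul_eq_mul] at h
    rw [hs w v] at h
    nlinarith
  have h := discrim_le_zero key
  unfold discrim at h
  nlinarith

/-- `√(g v v)` as a seminorm -/
def formSeminorm (g : E →ₗ[ℝ] E →ₗ[ℝ] ℝ) (hs : ∀ v w, g v w = g w v) (hp : ∀ v, 0 ≤ g v v) :
    Seminorm ℝ E :=
  Seminorm.of (fun v => √(g v v))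
    (fun v w => by
      refine Real.sqrt_le_iff.2 ⟨by positivity, ?_⟩
      have h1 : g v w ≤ √(g v v) * √(g w w) := by
        rw [← Real.sqrt_mul (hp v)]
        exact Real.le_sqrt_of_sq_le (form_cs g hs hp v w)
      have h2 := Real.sq_sqrt (hp v)
      have h3 := Real.sq_sqrt (hp w)
      simp only [map_add, LinearMap.add_apply]
      rw [hs w v]
      nlinarith)
    (fun a v => by
      have : g (a • v) (a • v) = a ^ 2 * g v v := by
        simp only [map_smul, LinearMap.smul_apply, smul_eq_mul]
        ring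
      rw [this, Real.sqrt_mul (sq_nonneg a), Real.sqrt_sq_eq_abs, Real.norm_eq_abs])

@[simp] lemma formSeminorm_apply (g : E →ₗ[ℝ] E →ₗ[ℝ] ℝ) (hs : ∀ v w, g v w = g w v)
    (hp : ∀ v, 0 ≤ g v v) (v : E) : formSeminorm g hs hp v = √(g v v) := rfl

section cont
variable {E : Type*} [NormedAddCommGroup E] [NormedSpace ℝ E] [FiniteDimensional ℝ E]

/-- a bilinear form on a finite dimensional space as a continuous bilinear form -/
def toBi (g : E →ₗ[ℝ] E →ₗ[ℝ] ℝ) : E →L[ℝ] E →L[ℝ] ℝ :=
  LinearMap.toContinuousLinearMap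
    { toFun := fun v => LinearMap.toContinuousLinearMap (g v)
      map_add' := fun v w => by rw [map_add, map_add]
      map_smul' := fun c v => by rw [map_smul, map_smul]; rfl }

@[simp] lemma toBi_apply (g : E →ₗ[ℝ] E →ₗ[ℝ] ℝ) (v w : E) : toBi g v w = g v w := rfl

end cont

end Vale.Agent.P242.H696
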