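import Vale.Agent.P242.H71.PB
import Vale.Agent.P242.H588.PB
import Vale.Agent.P242.H696.FormSeminorm
import Vale.Agent.P242.H696.Const

/-!
# P242, Part B: from the frozen statement of `H71/PB.lean` to the vocabulary of `H975/Defs.lean`
-/

open Metric
open scoped RealInnerProductSpace

noncomputable section

namespace Vale.Agent.P242.H696

open Vale.Agent.P242.PB

universe u

variable {n : ℕ} {X : Type u} [MetricSpace X]

/-- the data of `H71.PB` in the vocabulary of `H975/Defs.lean` -/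
def toData (S : H71.PB n X) (hs : ∀ k x v w, S.g k x v w = S.g k x w v)
    (hp : ∀ k x v, 0 ≤ S.g k x v v) : Data X (H71.E n) where
  u := S.u
  g := fun k x => toBi (S.g k x)
  N := fun k x => formSeminorm (S.g k x) (hs k x) (hp k x)
  nn := S.N
  D := S.D

lemma nonneg_of_hyp {S : H71.PB n X} {r₀ C₀ C₁ Λ τ B ε δ : ℝ} (H : S.Hyp r₀ C₀ C₁ Λ τ B ε δ)
    (k : ℕ) (x : X) (v : H71.E n) : 0 ≤ S.g k x v v := by
  rcases eq_or_ne v 0 with rfl | hv
  · simp
  · exact (H.pos k x v hv).le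

lemma par_r (r₀ C₀ C₁ Λ τ B ε δ : ℝ) (k : ℕ) :
    (par r₀ C₀ C₁ Λ τ B ε δ).r k = H71.rr r₀ Λ k := rfl

theorem hyp_of {S : H71.PB n X} {r₀ C₀ C₁ Λ τ B ε δ : ℝ} (H : S.Hyp r₀ C₀ C₁ Λ τ B ε δ) :
    Hyp (par r₀ C₀ C₁ Λ τ B ε δ) (toData S H.symm (nonneg_of_hyp H)) where
  symm := fun k x v v' => H.symm k x v v'
  gN := fun k x v => (Real.sq_sqrt (nonneg_of_hyp H k x v)).symm
  pos := fun k x v hv => Real.sqrt_pos.2 (H.pos k x v hv)
  diam := H.diam
  h1a := fun k x y hd => H.h1 k x y hd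
  h1b := fun k x y hd => H.h1' k x y hd
  h2 := fun k x v v' => by rw [mul_assoc]; exact H.h2 k x v v'
  h3 := fun k x y hd v v' => by
    have := H.h3 k x y hd v v'
    rw [mul_assoc]; exact this
  h4a := fun k x v => by
    have := H.h4a k x v
    change S.N k x v ^ 2 ≤ ε * √(S.g k x v v) ^ 2
    rwa [Real.sq_sqrt (nonneg_of_hyp H k x v)]
  h4b := H.h4b
  h4c := H.h4c
  h5 := H.h5
  h6a := H.h6a
  h6b := H.h6b
  h6c := H.h6c
  h7 := fun j k hjk x v => by
    have := H.h7 j k hjk x v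
    change √(S.g j x v v) ^ 2 ≤ 2 * √(S.g k x v v) ^ 2
    rwa [Real.sq_sqrt (nonneg_of_hyp H k x v), Real.sq_sqrt (nonneg_of_hyp H j x v)]

end Vale.Agent.P242.H696
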