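import Vale.Agent.P242.H542.Gam
import Vale.Agent.P242.H881.Grad2
import Vale.Agent.P242.H254.E1a
import Vale.Agent.P242.H196.GamP

/-! P242, package A-DL (helper696): regularization of the heat flow at a fixed centre, relative to a
constant, kernel-free: gradient, Laplacian, gradient of the Laplacian and the `Γ₂` form of
`P_τ f` in terms of the second moment of `f - c₀`. -/

set_option linter.all false

open MeasureTheory Filter Topology Set
open scoped ENNReal NNReal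

namespace Vale.Agent.P242.H696

open Vale.Agent.P233

variable {M : Type*} [MeasurableSpace M] {m : Measure M} {C : Calc m}
variable {φ : ℝ → M →ₘ[m] ℝ} (hφ : Cen C φ) {κ N s t : ℝ} {f : M →ₘ[m] ℝ}
include hφ

/-- the second moment of `f - c₀` about a centre -/
theorem sq_expand (hs : 0 < s) (hf : MemLp f 2 m) (hft : MemLp f ∞ m) (c₀ : ℝ) :
    I (φ s * (f - c₀ • (1 : M →ₘ[m] ℝ)) ^ 2) = I (φ s * f ^ 2) - 2 * c₀ * I (φ s * f) + c₀ ^ 2 := by
  have m1 : MemLp (φ s * f ^ 2 : M →ₘ[m] ℝ) 1 m := mem_mul_top (hφ.top s hs) (mem_sq hf)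
  have m2 : MemLp (φ s * f : M →ₘ[m] ℝ) 1 m := mem_mul_22 (hφ.mem2 s hs) hf
  have e : φ s * (f - c₀ • (1 : M →ₘ[m] ℝ)) ^ 2
      = φ s * f ^ 2 - (2 * c₀) • (φ s * f) + (c₀ ^ 2) • φ s := by algebra
  rw [e, I_add (mem_sub m1 (mem_smul _ m2)) (mem_smul _ (hφ.mem1 s hs)), I_sub m1 (mem_smul _ m2),
    I_smul, I_smul, hφ.mass s hs, mul_one]

/-- Jensen: `(P_s f(x) - c₀)²` and the variance -/
theorem var_le (hD : IsDir C) (hs : 0 < s) (ht : 0 ≤ t) (hf : MemLp f 2 m) (hft : MemLp f ∞ m)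
    (c₀ : ℝ) :
    I (φ (s + t) * f ^ 2) - I (φ s * C.P t f ^ 2) ≤ I (φ (s + t) * (f - c₀ • (1 : M →ₘ[m] ℝ)) ^ 2) := by
  have hP2 := hD.P_mem2 t hf
  have hPt := hD.P_memTop ht hf hft
  have h0 : 0 ≤ I (φ s * (C.P t f - c₀ • (1 : M →ₘ[m] ℝ)) ^ 2) :=
    I_nonneg (mul_nonneg (hφ.nonneg s hs) (sq_nonneg' _))
  rw [sq_expand hφ hs hP2 hPt, hφ.av_P hD hs ht hf] at h0
  rw [sq_expand hφ (by linarith) hf hft]
  linarith

/-- reverse Poincaré inequality relative to a constant -/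
theorem cen_grad (hC : IsGamma C) (hB : C.BEi κ) (hs : 0 < s) (ht : 0 < t) (hf : MemLp f 2 m)
    (hft : MemLp f ∞ m) (c₀ : ℝ) :
    2 * t * Real.exp (-(2 * |κ| * t)) * I (φ s * C.Γ (C.P t f) (C.P t f))
      ≤ I (φ (s + t) * (f - c₀ • (1 : M →ₘ[m] ℝ)) ^ 2) := by
  have hD := hC.toIsDir
  have h1 := H881.reverse_poincare_weak hC hB ht hf hft (hφ.nonneg s hs) (hφ.mem2 s hs)
    (hφ.top s hs)
  refine h1.trans ?_
  have hf22 := H881.sq_mem2 hf hft
  have hP2 := hD.P_mem2 t hf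
  have m1 : MemLp (φ s * C.P t (f ^ 2) : M →ₘ[m] ℝ) 1 m :=
    mem_mul_22 (hφ.mem2 s hs) (hD.P_mem2 t hf22)
  have m2 : MemLp (φ s * C.P t f ^ 2 : M →ₘ[m] ℝ) 1 m := mem_mul_top (hφ.top s hs) (mem_sq hP2)
  rw [mul_sub, I_sub m1 m2, hφ.av_P hD hs ht.le hf22]
  exact var_le hφ hD hs ht.le hf hft c₀

/-- the Laplacian relative to a constant -/
theorem cen_lap [SigmaFinite m] (hC : IsGamma C) (hN : 0 < N) (hBE : C.BE κ N) (hs : 0 < s)
    (ht : 0 < t) (hf : MemLp f 2 m) (hft : MemLp f ∞ m) (c₀ : ℝ) :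
    4 * t ^ 2 / N * Real.exp (-(6 * |κ| * t)) * I (φ s * C.lap (C.P (2 * t) f) ^ 2)
      ≤ I (φ (s + 2 * t) * (f - c₀ • (1 : M →ₘ[m] ℝ)) ^ 2) := by
  have hD := hC.toIsDir
  have hB := hC.bei hN hBE
  have hg : C.P t f ∈ C.A := ⟨hD.P_mem ht hf, hD.P_memTop ht.le hf hft⟩
  have h1 := H254.gradLap_weak hC hN hBE ht hg (hφ.nonneg s hs) (hφ.mem2 s hs) (hφ.top s hs)
  have e1 : C.P t (C.P t f) = C.P (2 * t) f := by
    rw [hD.P_P ht.le ht.le hf]; congr 1; ring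
  rw [e1, hφ.semi s t hs ht.le] at h1
  have h0 : 0 ≤ I (φ s * C.Γ (C.P (2 * t) f) (C.P (2 * t) f)) :=
    I_nonneg (mul_nonneg (hφ.nonneg s hs) (hC.nonneg _ (hD.P_mem (by linarith) hf)))
  have h2 := cen_grad hφ hC hB (s := s + t) (t := t) (by linarith) ht hf hft c₀
  have e2 : s + t + t = s + 2 * t := by ring
  rw [e2] at h2
  set L := I (φ s * C.lap (C.P (2 * t) f) ^ 2) with hL
  set G := I (φ (s + t) * C.Γ (C.P t f) (C.P t f)) with hG
  have hG0 : 0 ≤ G := I_nonneg (mul_nonneg (hφ.nonneg _ (by linarith))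
    (hC.nonneg _ (hD.P_mem ht hf)))
  have h3 : Real.exp (-(2 * κ * t)) ≤ Real.exp (2 * |κ| * t) := by
    apply Real.exp_le_exp.2
    have := neg_abs_le κ
    nlinarith
  have h4 : 2 * t / N * Real.exp (-(2 * |κ| * t)) * L ≤ Real.exp (2 * |κ| * t) * G := by
    have : Real.exp (-(2 * κ * t)) * G ≤ Real.exp (2 * |κ| * t) * G := by gcongr
    linarith
  refine le_trans ?_ h2
  have e3 : Real.exp (-(6 * |κ| * t)) = Real.exp (-(2 * |κ| * t)) * Real.exp (-(2 * |κ| * t))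
      * Real.exp (-(2 * |κ| * t)) := by
    rw [← Real.exp_add, ← Real.exp_add]; congr 1; ring
  have e4 : Real.exp (-(2 * |κ| * t)) * Real.exp (2 * |κ| * t) = 1 := by
    rw [← Real.exp_add]; simp
  calc 4 * t ^ 2 / N * Real.exp (-(6 * |κ| * t)) * L
      = 2 * t * Real.exp (-(2 * |κ| * t)) * Real.exp (-(2 * |κ| * t)) *
        (2 * t / N * Real.exp (-(2 * |κ| * t)) * L) := by rw [e3]; ring
    _ ≤ 2 * t * Real.exp (-(2 * |κ| * t)) * Real.exp (-(2 * |κ| * t)) *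
        (Real.exp (2 * |κ| * t) * G) := by gcongr
    _ = 2 * t * Real.exp (-(2 * |κ| * t)) * (Real.exp (-(2 * |κ| * t)) *
        Real.exp (2 * |κ| * t)) * G := by ring
    _ = 2 * t * Real.exp (-(2 * |κ| * t)) * G := by rw [e4]; ring

/-- the gradient of the Laplacian relative to a constant -/
theorem cen_grad_lap [SigmaFinite m] (hC : IsGamma C) (hN : 0 < N) (hBE : C.BE κ N) (hs : 0 < s)
    (ht : 0 < t) (hf : MemLp f 2 m) (hft : MemLp f ∞ m) (c₀ : ℝ) :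
    8 * t ^ 3 / N * Real.exp (-(8 * |κ| * t)) *
        I (φ s * C.Γ (C.lap (C.P (3 * t) f)) (C.lap (C.P (3 * t) f)))
      ≤ I (φ (s + 3 * t) * (f - c₀ • (1 : M →ₘ[m] ℝ)) ^ 2) := by
  have hD := hC.toIsDir
  have hB := hC.bei hN hBE
  have hg := H715.P_testI_pos hC hN hBE (show 0 < 2 * t by linarith) hf hft
  have hg2 : MemLp (C.lap (C.P (2 * t) f)) 2 m := hD.lap_P_mem2 (by linarith) hf
  have h1 := cen_grad hφ hC hB hs ht hg2 hg.2 0
  have e1 : C.P t (C.lap (C.P (2 * t) f)) = C.lap (C.P (3 * t) f) := by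
    rw [hD.P_lap_add' (by linarith) ht.le hf]; congr 2; ring
  rw [e1, zero_smul, sub_zero] at h1
  have h2 := cen_lap hφ hC hN hBE (s := s + t) (t := t) (by linarith) ht hf hft c₀
  have e2 : s + t + 2 * t = s + 3 * t := by ring
  rw [e2] at h2
  refine le_trans ?_ h2
  set G := I (φ s * C.Γ (C.lap (C.P (3 * t) f)) (C.lap (C.P (3 * t) f))) with hG
  set L := I (φ (s + t) * C.lap (C.P (2 * t) f) ^ 2) with hL
  have e3 : Real.exp (-(8 * |κ| * t)) = Real.exp (-(6 * |κ| * t)) * Real.exp (-(2 * |κ| * t)) := by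
    rw [← Real.exp_add]; congr 1; ring
  calc 8 * t ^ 3 / N * Real.exp (-(8 * |κ| * t)) * G
      = 4 * t ^ 2 / N * Real.exp (-(6 * |κ| * t)) *
        (2 * t * Real.exp (-(2 * |κ| * t)) * G) := by rw [e3]; ring
    _ ≤ 4 * t ^ 2 / N * Real.exp (-(6 * |κ| * t)) * L := by gcongr

/-- the `Γ₂` form relative to a constant; `L` bounds the Laplacian of the centre family -/
theorem cen_NN [SigmaFinite m] (hC : IsGamma C) (hN : 0 < N) (hBE : C.BE κ N) (hs : 0 < s)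
    (ht : 0 < t) (ht1 : |κ| * t ≤ 1) (hf : MemLp f 2 m) (hft : MemLp f ∞ m) (c₀ : ℝ)
    {L s' V : ℝ} (hL0 : 0 ≤ L) (hs' : 0 < s') (hL : ∀ᵐ z ∂m, |C.lap (φ s) z| ≤ L * φ s' z)
    (hV : ∀ r, r = s + 3 * t ∨ r = s' + 3 * t → I (φ r * (f - c₀ • (1 : M →ₘ[m] ℝ)) ^ 2) ≤ V) :
    C.NN κ (C.P (3 * t) f) (C.P (3 * t) f) (φ s) ≤
      (Real.exp 6 * L / (12 * t) + Real.exp 7 * (N + 1) / t ^ 2) * V := by
  have hD := hC.toIsDir
  have hB := hC.bei hN hBE
  have h3 : 0 < 3 * t := by linarith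
  set u := C.P (3 * t) f with hu
  have hT : u ∈ C.TestI := H715.P_testI_pos hC hN hBE h3 hf hft
  have huW : u ∈ C.W := hD.P_mem h3 hf
  have hlW : C.lap u ∈ C.W := hC.test_lap_mem hT.1
  have hV0 : 0 ≤ V := by
    refine le_trans ?_ (hV (s + 3 * t) (Or.inl rfl))
    exact I_nonneg (mul_nonneg (hφ.nonneg _ (by linarith)) (sq_nonneg' _))
  have hκ : 0 ≤ |κ| := abs_nonneg κ
  -- the gradient
  have hg : ∀ r, 0 < r → I (φ (r + 3 * t) * (f - c₀ • (1 : M →ₘ[m] ℝ)) ^ 2) ≤ V →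
      I (φ r * C.Γ u u) ≤ Real.exp 6 / (6 * t) * V := by
    intro r hr hrV
    have h1 := (cen_grad hφ hC hB (s := r) (t := 3 * t) hr h3 hf hft c₀).trans hrV
    rw [← hu] at h1
    have e1 : Real.exp (2 * |κ| * (3 * t)) * Real.exp (-(2 * |κ| * (3 * t))) = 1 := by
      rw [← Real.exp_add]; simp
    have e2 : Real.exp (2 * |κ| * (3 * t)) ≤ Real.exp 6 := by
      apply Real.exp_le_exp.2; nlinarith
    calc I (φ r * C.Γ u u)
        = (Real.exp (2 * |κ| * (3 * t)) * Real.exp (-(2 * |κ| * (3 * t)))) *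
          I (φ r * C.Γ u u) := by rw [e1, one_mul]
      _ = Real.exp (2 * |κ| * (3 * t)) / (6 * t) *
          (2 * (3 * t) * Real.exp (-(2 * |κ| * (3 * t))) * I (φ r * C.Γ u u)) := by
          field_simp; ring
      _ ≤ Real.exp (2 * |κ| * (3 * t)) / (6 * t) * V := by gcongr
      _ ≤ Real.exp 6 / (6 * t) * V := by gcongr
  have g1 := hg s hs (hV _ (Or.inl rfl))
  have g2 := hg s' hs' (hV _ (Or.inr rfl))
  have g0 : 0 ≤ I (φ s * C.Γ u u) :=
    I_nonneg (mul_nonneg (hφ.nonneg s hs) (hC.nonneg _ huW))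
  -- the gradient of the Laplacian
  have gl : I (φ s * C.Γ (C.lap u) (C.lap u)) ≤ Real.exp 8 * N / (8 * t ^ 3) * V := by
    have h1 := (cen_grad_lap hφ hC hN hBE (s := s) (t := t) hs ht hf hft c₀).trans
      (hV _ (Or.inl rfl))
    rw [← hu] at h1
    have e1 : Real.exp (8 * |κ| * t) * Real.exp (-(8 * |κ| * t)) = 1 := by
      rw [← Real.exp_add]; simp
    have e2 : Real.exp (8 * |κ| * t) ≤ Real.exp 8 := by
      apply Real.exp_le_exp.2; nlinarith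
    calc I (φ s * C.Γ (C.lap u) (C.lap u))
        = (Real.exp (8 * |κ| * t) * Real.exp (-(8 * |κ| * t))) *
          I (φ s * C.Γ (C.lap u) (C.lap u)) := by rw [e1, one_mul]
      _ = Real.exp (8 * |κ| * t) * N / (8 * t ^ 3) *
          (8 * t ^ 3 / N * Real.exp (-(8 * |κ| * t)) *
            I (φ s * C.Γ (C.lap u) (C.lap u))) := by
          field_simp
      _ ≤ Real.exp (8 * |κ| * t) * N / (8 * t ^ 3) * V := by gcongr
      _ ≤ Real.exp 8 * N / (8 * t ^ 3) * V := by gcongr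
  have gl0 : 0 ≤ I (φ s * C.Γ (C.lap u) (C.lap u)) :=
    I_nonneg (mul_nonneg (hφ.nonneg s hs) (hC.nonneg _ hlW))
  -- the mixed term
  have gm : |I (φ s * C.Γ u (C.lap u))| ≤ Real.exp 7 * (N + 1) / (2 * t ^ 2) * V := by
    refine (H196.I_Γ_abs hC (hφ.top s hs) (hφ.nonneg s hs) huW hlW).trans ?_
    have a1 : √(I (φ s * C.Γ u u)) ≤ √(Real.exp 6 / (6 * t) * V) := Real.sqrt_le_sqrt g1
    have a2 : √(I (φ s * C.Γ (C.lap u) (C.lap u))) ≤ √(Real.exp 8 * N / (8 * t ^ 3) * V) :=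
      Real.sqrt_le_sqrt gl
    refine (mul_le_mul a1 a2 (Real.sqrt_nonneg _) (Real.sqrt_nonneg _)).trans ?_
    rw [← Real.sqrt_mul (by positivity)]
    refine Real.sqrt_le_iff.2 ⟨by positivity, ?_⟩
    have e1 : Real.exp 6 * Real.exp 8 = Real.exp 7 ^ 2 := by
      rw [← Real.exp_add, ← Real.exp_nat_mul]; norm_num
    have e2 : Real.exp 6 / (6 * t) * V * (Real.exp 8 * N / (8 * t ^ 3) * V)
        = (Real.exp 6 * Real.exp 8) * (N / 48) * (V / t ^ 2) ^ 2 := by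
      field_simp; ring
    have e3 : (Real.exp 7 * (N + 1) / (2 * t ^ 2) * V) ^ 2
        = Real.exp 7 ^ 2 * ((N + 1) ^ 2 / 4) * (V / t ^ 2) ^ 2 := by
      field_simp; ring
    rw [e2, e1, e3]
    have : N / 48 ≤ (N + 1) ^ 2 / 4 := by nlinarith
    gcongr
  -- the Laplacian of the weight
  have hΓt : MemLp (C.Γ u u) 1 m := hC.mem1 _ huW
  have gw : I (C.lap (φ s) * C.Γ u u) ≤ L * (Real.exp 6 / (6 * t) * V) := by
    have hl2 : MemLp (C.lap (φ s)) 2 m := (hφ.isLap hD hs).2.1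
    have hΓ2 : MemLp (C.Γ u u) 2 m := hC.Γ_mem2' hB hT.1 hT.1
    have m1 : MemLp (C.lap (φ s) * C.Γ u u : M →ₘ[m] ℝ) 1 m := mem_mul_22 hl2 hΓ2
    have m2 : MemLp (L • (φ s' * C.Γ u u) : M →ₘ[m] ℝ) 1 m :=
      mem_smul _ (mem_mul_top (hφ.top s' hs') hΓt)
    refine (I_mono m1 m2 ?_).trans ?_
    · rw [le_iff_ae]
      filter_upwards [hL, mul_ae (C.lap (φ s)) (C.Γ u u), smul_ae (φ s' * C.Γ u u) L,
        mul_ae (φ s') (C.Γ u u), nonneg_iff_ae.1 (hC.nonneg _ huW)] with z a1 a2 a3 a4 a5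
      rw [a2, a3, a4, ← mul_assoc]
      exact mul_le_mul_of_nonneg_right ((le_abs_self _).trans a1) a5
    · rw [I_smul]
      gcongr
  -- the formula
  have key := hφ.lap_av_Γ (K₀ := -κ) hC hB hs hT.1 hT.1
  rw [neg_neg] at key
  have mm : MemLp (φ s * C.Γ u (C.lap u) : M →ₘ[m] ℝ) 1 m :=
    mem_mul_top (hφ.top s hs) (hC.Γ_mem1 huW hlW)
  have e5 : I (φ s * (C.Γ u (C.lap u) + C.Γ u (C.lap u))) = 2 * I (φ s * C.Γ u (C.lap u)) := by
    rw [mul_add, I_add mm mm]; ring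
  rw [e5] at key
  have k1 := (abs_le.1 gm).1
  have k2 : -κ * I (φ s * C.Γ u u) ≤ |κ| * (Real.exp 6 / (6 * t) * V) := by
    calc -κ * I (φ s * C.Γ u u) ≤ |κ| * I (φ s * C.Γ u u) := by
          gcongr; exact neg_le_abs κ
      _ ≤ _ := by gcongr
  have k3 : |κ| * (Real.exp 6 / (6 * t) * V) ≤ Real.exp 6 / (6 * t ^ 2) * V := by
    have : |κ| * (Real.exp 6 / (6 * t) * V) = (|κ| * t) * (Real.exp 6 / (6 * t ^ 2) * V) := by
      field_simp
    rw [this]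
    exact mul_le_of_le_one_left (by positivity) ht1
  have k4 : Real.exp 6 / (6 * t ^ 2) * V ≤ Real.exp 7 * (N + 1) / (2 * t ^ 2) * V := by
    have h67 : Real.exp 6 ≤ Real.exp 7 := Real.exp_le_exp.2 (by norm_num)
    have : Real.exp 6 / (6 * t ^ 2) ≤ Real.exp 7 * (N + 1) / (2 * t ^ 2) := by
      rw [div_le_div_iff₀ (by positivity) (by positivity)]
      have h8 : 0 < Real.exp 6 := Real.exp_pos _
      have h9 : 0 < t ^ 2 := by positivity
      have h10 : Real.exp 6 * 2 ≤ Real.exp 7 * (N + 1) * 6 := by nlinarith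
      nlinarith
    gcongr
  have e6 : (Real.exp 6 * L / (12 * t) + Real.exp 7 * (N + 1) / t ^ 2) * V
      = (1 / 2) * (L * (Real.exp 6 / (6 * t) * V)) + Real.exp 7 * (N + 1) / (2 * t ^ 2) * V
        + Real.exp 7 * (N + 1) / (2 * t ^ 2) * V := by
    field_simp; ring
  rw [e6]
  linarith

end Vale.Agent.P242.H696
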